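import Vale.Agent.P087.Defs

/-! Field operators on functions of words, and the free difference quotient. -/

namespace Vale.Agent.P087

variable {I : Type} [DecidableEq I] {V W : Type} [AddCommGroup V] [Module ℂ V] [AddCommGroup W]
  [Module ℂ W]

/-- Left creation plus annihilation. -/
def sL (e : I) : Module.End ℂ (List I → V) where
  toFun η w := (if w.head? = some e then η w.tail else 0) + η (e :: w)
  map_add' η η' := funext fun w => by
    simp only [Pi.add_apply]
    split_ifs <;> abel
  map_smul' c η := funext fun w => by
    simp only [Pi.smul_apply, RingHom.id_apply, smul_add]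
    split_ifs <;> simp

/-- Right creation plus annihilation. -/
def sR (e : I) : Module.End ℂ (List I → V) where
  toFun η w := (if w.getLast? = some e then η w.dropLast else 0) + η (w ++ [e])
  map_add' η η' := funext fun w => by
    simp only [Pi.add_apply]
    split_ifs <;> abel
  map_smul' c η := funext fun w => by
    simp only [Pi.smul_apply, RingHom.id_apply, smul_add]
    split_ifs <;> simp

lemma sL_apply (e : I) (η : List I → V) (w : List I) :
    sL e η w = (if w.head? = some e then η w.tail else 0) + η (e :: w) := rfl

lemma sR_apply (e : I) (η : List I → V) (w : List I) :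
    sR e η w = (if w.getLast? = some e then η w.dropLast else 0) + η (w ++ [e]) := rfl

lemma sL_sR (e f : I) (η : List I → V) : sL e (sR f η) = sR f (sL e η) := by
  funext w
  rcases w with _ | ⟨a, w⟩
  · by_cases h : e = f <;> simp [sL_apply, sR_apply, h, eq_comm]
  · rcases List.eq_nil_or_concat w with rfl | ⟨w, b, rfl⟩
    · simp only [sL_apply, sR_apply]
      by_cases h : a = e <;> by_cases h' : a = f <;> simp [h, h']
      all_goals abel
    · have h1 : ∀ u : List I, (u ++ (w ++ [b])).getLast? = some b := fun u => by
        rw [← List.append_assoc, List.getLast?_concat]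
      have h2 : ∀ u : List I, (u ++ (w ++ [b])).dropLast = u ++ w := fun u => by
        rw [← List.append_assoc, List.dropLast_concat]
      have a1 := h1 [a]
      have a2 := h2 [a]
      have a3 := h1 [e, a]
      have a4 := h2 [e, a]
      simp only [List.cons_append, List.nil_append] at a1 a2 a3 a4
      simp only [sL_apply, sR_apply, List.concat_eq_append, List.head?_cons, List.tail_cons,
        List.getLast?_concat, List.dropLast_concat, a1, a2, a3, a4, List.cons_append,
        Option.some.injEq]
      by_cases h : a = e <;> by_cases h' : b = f <;> simp only [h, h', if_true, if_false] <;> abel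

/-- The vacuum. -/
def dz : List I → ℂ := Pi.single [] 1

lemma sR_dz (e : I) : sR e (dz : List I → ℂ) = sL e dz := by
  funext w
  rcases w with _ | ⟨a, _ | ⟨b, w⟩⟩ <;> simp [sL_apply, sR_apply, dz]

/-- Action on the values. -/
def P2 (b : V →ₗ[ℂ] W) : (List I → V) →ₗ[ℂ] (List I → W) := b.compLeft _

omit [DecidableEq I] in
lemma P2_apply (b : V →ₗ[ℂ] W) (η : List I → V) (w : List I) : P2 b η w = b (η w) := rfl

lemma sL_P2 (e : I) (b : V →ₗ[ℂ] W) (η : List I → V) : sL e (P2 b η) = P2 b (sL e η) := by
  funext w
  simp only [sL_apply, P2_apply, map_add, apply_ite b, map_zero]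

lemma sR_P2 (e : I) (b : V →ₗ[ℂ] W) (η : List I → V) : sR e (P2 b η) = P2 b (sR e η) := by
  funext w
  simp only [sR_apply, P2_apply, map_add, apply_ite b, map_zero]

/-- Elementary tensors. -/
def ten (α : List I → ℂ) : V →ₗ[ℂ] (List I → V) where
  toFun β u := α u • β
  map_add' _ _ := funext fun _ => smul_add _ _ _
  map_smul' _ _ := funext fun _ => smul_comm _ _ _

omit [DecidableEq I] in
lemma ten_apply (α : List I → ℂ) (β : V) (u : List I) : ten α β u = α u • β := rfl

lemma sL_ten (e : I) (α : List I → ℂ) (β : V) : sL e (ten α β) = ten (sL e α) β := by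
  funext w
  simp only [sL_apply, ten_apply, add_smul, ite_smul, zero_smul]

lemma sR_ten (e : I) (α : List I → ℂ) (β : V) : sR e (ten α β) = ten (sR e α) β := by
  funext w
  simp only [sR_apply, ten_apply, add_smul, ite_smul, zero_smul]

omit [DecidableEq I] in
lemma P2_ten (b : V →ₗ[ℂ] W) (α : List I → ℂ) (β : V) : P2 b (ten α β) = ten α (b β) := by
  funext w
  simp only [P2_apply, ten_apply, map_smul]

/-- The free difference quotient. -/
def DD (e : I) : (List I → ℂ) →ₗ[ℂ] (List I → List I → ℂ) where
  toFun η u v := η (u ++ e :: v)
  map_add' _ _ := rfl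
  map_smul' _ _ := rfl

omit [DecidableEq I] in
lemma DD_apply (e : I) (η : List I → ℂ) (u v : List I) : DD e η u v = η (u ++ e :: v) := rfl

lemma DD_dz (e : I) : DD e (dz : List I → ℂ) = 0 := by
  funext u v
  simp [DD_apply, dz]

lemma DD_sL (e f : I) (η : List I → ℂ) :
    DD e (sL f η) = sL f (DD e η) + if f = e then ten dz η else 0 := by
  funext u v
  rcases u with _ | ⟨a, u⟩
  · by_cases h : f = e <;> simp [DD_apply, sL_apply, ten_apply, dz, h, eq_comm (a := e), add_comm]
  · simp only [DD_apply, sL_apply, Pi.add_apply, ite_apply, ten_apply, dz, Pi.zero_apply]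
    simp

end Vale.Agent.P087
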