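import Vale.Agent.P087.Defs
import Mathlib.Probability.Distributions.Gaussian.Real

/-! The model and auxiliary notions. -/

namespace Vale.Agent.P087

open scoped ComplexConjugate NNReal
open MeasureTheory ProbabilityTheory

/-- The Schwinger-Dyson equations of a free semicircular family. -/
structure SD {ι : Type} [DecidableEq ι] (μ : List ι → ℂ) : Prop where
  nil : μ [] = 1
  cons : ∀ i w, μ (i :: w) = ∑ l ∈ Finset.range w.length,
    if w[l]? = some i then μ (w.take l) * μ (w.drop (l + 1)) else 0
  rev : ∀ w, μ w.reverse = conj (μ w)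

/-- Hidden and observed coordinates. -/
abbrev NN (F : Type) := (Fin 3 × F) ⊕ (F × F × F)

/-- The planted cubic polynomials. -/
def ZZ {F A : Type} [Ring A] (s : NN F → A) (j : F × F × F) : A :=
  s (.inl (0, j.1)) * s (.inl (1, j.2.1)) * s (.inl (2, j.2.2)) +
    s (.inl (2, j.2.2)) * s (.inl (1, j.2.1)) * s (.inl (0, j.1))

/-- The triangular polynomial map. -/
def XX {F A : Type} [Ring A] (s : NN F → A) : NN F → A
  | .inl h => s (.inl h)
  | .inr j => s (.inr j) + ZZ s j

/-- Independent Gaussian coordinates of variance `1 / k`. -/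
noncomputable def gam (σ : Type) [Fintype σ] (k : ℕ) : Measure (σ → ℝ) :=
  Measure.pi fun _ => gaussianReal 0 (k : ℝ≥0)⁻¹

instance (σ : Type) [Fintype σ] (k : ℕ) : IsProbabilityMeasure (gam σ k) := by
  unfold gam; infer_instance

/-- The matrices with coordinates `y`. -/
noncomputable def mat {ι : Type} {k : ℕ} (y : ι × Fin k × Fin k → ℝ) (j : ι) :
    Matrix (Fin k) (Fin k) ℂ := herm fun a => y (j, a)

end Vale.Agent.P087
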