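import Mathlib.Analysis.CStarAlgebra.Matrix
import Mathlib.Analysis.VonNeumannAlgebra.Basic
import Mathlib.Analysis.SpecialFunctions.Log.ENNRealLog
import Mathlib.MeasureTheory.Constructions.Pi
import Mathlib.MeasureTheory.Measure.Lebesgue.Basic
import Mathlib.Combinatorics.Enumerative.Catalan.Basic

/-! Definitions used in the statement: microstates and nonmicrostates free entropy. -/

namespace Vale.Agent.P087

open scoped InnerProductSpace ENNReal
open MeasureTheory Filter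

variable {ι : Type} [Fintype ι] [DecidableEq ι]

/-- The linear isometry from `ℝ^(k × k)` onto the self-adjoint matrices with the Euclidean
structure `Tr (A B)`: the real part is the symmetric part of `y`, the imaginary part is the
antisymmetric part of `y`. -/
noncomputable def herm {k : ℕ} (y : Fin k × Fin k → ℝ) : Matrix (Fin k) (Fin k) ℂ :=
  Matrix.of fun p q => ⟨(y (p, q) + y (q, p)) / 2, (y (p, q) - y (q, p)) / 2⟩

/-- The operator norm of `A` on Euclidean space is at most `R` (for `0 ≤ R`). -/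
def OpLe {k : ℕ} (A : Matrix (Fin k) (Fin k) ℂ) (R : ℝ) : Prop :=
  ∀ v : Fin k → ℂ, ∑ p, ‖A.mulVec v p‖ ^ 2 ≤ R ^ 2 * ∑ p, ‖v p‖ ^ 2

/-- The set of microstates, in the coordinates `herm`, of a tuple whose moments are `μ`. -/
def Gam (μ : List ι → ℂ) (R : ℝ) (m k : ℕ) (ε : ℝ) : Set (ι × Fin k × Fin k → ℝ) :=
  {y | (∀ j, OpLe (herm fun a => y (j, a)) R) ∧
    ∀ w : List ι, 1 ≤ w.length → w.length ≤ m →
      ‖(k : ℂ)⁻¹ * (w.map fun j => herm fun a => y (j, a)).prod.trace - μ w‖ < ε}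

/-- The microstates free entropy with cutoff `R`. -/
noncomputable def chiR (μ : List ι → ℂ) (R : ℝ) : EReal :=
  ⨅ (m : ℕ) (ε : ℝ) (_ : 0 < ε), limsup (fun k : ℕ =>
    ((((k : ℝ) ^ 2)⁻¹ : ℝ) : EReal) * ENNReal.log (volume (Gam μ R m k ε)) +
      ((Fintype.card ι / 2 * Real.log k : ℝ) : EReal)) atTop

/-- The microstates free entropy. -/
noncomputable def chi (μ : List ι → ℂ) : EReal := ⨆ (R : ℝ) (_ : 0 < R), chiR μ R

variable {H : Type} [NormedAddCommGroup H] [InnerProductSpace ℂ H]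

/-- The monomial `Y i₁ ⋯ Y iₚ` applied to a vector. -/
def act (Y : ι → H →L[ℂ] H) (w : List ι) (ξ : H) : H := w.foldr (fun i η => Y i η) ξ

/-- The moments `τ (Y i₁ ⋯ Y iₚ)` for the vector state `τ` of `Ω`. -/
noncomputable def mom (Y : ι → H →L[ℂ] H) (Ω : H) (w : List ι) : ℂ := ⟪Ω, act Y w Ω⟫_ℂ

/-- The space `L²(W*(Y), τ)`, the closure of `W*(Y) Ω`. -/
def L2 (Y : ι → H →L[ℂ] H) (Ω : H) : Set H :=
  closure {ξ | ∃ x ∈ Set.centralizer (Set.centralizer (Set.range Y)), ξ = x Ω}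

/-- Conjugate variables: `τ (ξ j * P) = (τ ⊗ τ) (∂ j P)` for all monomials `P`. -/
def IsConj (Y : ι → H →L[ℂ] H) (Ω : H) (ξ : ι → H) : Prop :=
  ∀ j, ξ j ∈ L2 Y Ω ∧ ∀ w : List ι, ⟪Ω, act Y w (ξ j)⟫_ℂ = ∑ l ∈ Finset.range w.length,
    if w[l]? = some j then mom Y Ω (w.take l) * mom Y Ω (w.drop (l + 1)) else 0

/-- The free Fisher information (infinite if there are no conjugate variables). -/
noncomputable def fisher (Y : ι → H →L[ℂ] H) (Ω : H) : ℝ≥0∞ :=
  ⨅ (ξ : ι → H) (_ : IsConj Y Ω ξ), ENNReal.ofReal (∑ j, ‖ξ j‖ ^ 2)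

/-- The nonmicrostates free entropy; the integral is the integral of the positive part minus the
integral of the negative part. -/
noncomputable def chiStar (X S : ι → H →L[ℂ] H) (Ω : H) : EReal :=
  ((1 / 2 : ℝ) : EReal) *
    (((∫⁻ t in Set.Ioi (0 : ℝ), (ENNReal.ofReal (Fintype.card ι / (1 + t)) -
        fisher (fun j => X j + (√t : ℂ) • S j) Ω) : ℝ≥0∞) : EReal) -
      ((∫⁻ t in Set.Ioi (0 : ℝ), (fisher (fun j => X j + (√t : ℂ) • S j) Ω -
        ENNReal.ofReal (Fintype.card ι / (1 + t))) : ℝ≥0∞) : EReal)) +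
    ((Fintype.card ι / 2 * Real.log (2 * Real.pi * Real.exp 1) : ℝ) : EReal)

/-- Free independence of the unital algebras generated by the sets `B i`. -/
def IsFree {κ A : Type} [Ring A] [Algebra ℂ A] (τ : A → ℂ) (B : κ → Set A) : Prop :=
  ∀ l : List (κ × A), l ≠ [] → (∀ p ∈ l, p.2 ∈ Algebra.adjoin ℂ (B p.1) ∧ τ p.2 = 0) →
    l.IsChain (fun p q => p.1 ≠ q.1) → τ (l.map Prod.snd).prod = 0

/-- The moments of the semicircular law of variance one. -/
def IsSemicirc {A : Type} [Monoid A] (τ : A → ℂ) (s : A) : Prop :=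
  ∀ p : ℕ, τ (s ^ (2 * p)) = catalan p ∧ τ (s ^ (2 * p + 1)) = 0

/-- The vector state of `Ω` is a faithful trace on `M`, the tuples `X`, `S` are self-adjoint
elements of `M`, and `S` is a free semicircular family of variance one, free from `X`. -/
structure Setup [CompleteSpace H] (M : VonNeumannAlgebra H) (Ω : H) (X S : ι → H →L[ℂ] H) :
    Prop where
  unit : ‖Ω‖ = 1
  trace : ∀ x ∈ M, ∀ y ∈ M, ⟪Ω, (x * y) Ω⟫_ℂ = ⟪Ω, (y * x) Ω⟫_ℂ
  faithful : ∀ x ∈ M, ⟪Ω, (star x * x) Ω⟫_ℂ = 0 → x = 0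
  mem : ∀ j, X j ∈ M ∧ S j ∈ M
  sa : ∀ j, IsSelfAdjoint (X j) ∧ IsSelfAdjoint (S j)
  semi : ∀ j, IsSemicirc (fun x : H →L[ℂ] H => ⟪Ω, x Ω⟫_ℂ) (S j)
  free : IsFree (fun x : H →L[ℂ] H => ⟪Ω, x Ω⟫_ℂ)
    (fun o : Option ι => o.elim (Set.range X) fun j => {S j})

/-- Some `n`-tuple of operators on `H` has finite entropies with `χ < χ*`. -/
def Counter (n : ℕ) (H : Type) [NormedAddCommGroup H] [InnerProductSpace ℂ H] [CompleteSpace H] :
    Prop :=
  ∃ (M : VonNeumannAlgebra H) (Ω : H) (X S : Fin n → H →L[ℂ] H), Setup M Ω X S ∧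
    ⊥ < chi (mom X Ω) ∧ chi (mom X Ω) < chiStar X S Ω ∧ chiStar X S Ω < ⊤

end Vale.Agent.P087
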