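import Vale.Agent.P087.Alg
import Mathlib.Analysis.InnerProductSpace.l2Space

/-! The full Fock space and the tracial von Neumann algebra of the field operators. -/

namespace Vale.Agent.P087

open scoped InnerProductSpace ENNReal

variable {I : Type} [DecidableEq I]

/-- The full Fock space. -/
noncomputable abbrev FH (I : Type) := lp (fun _ : List I => ℂ) 2

/-- The basis vectors. -/
noncomputable def dl (w : List I) : FH I := lp.single 2 w 1

lemma inner_dl (w : List I) (ζ : FH I) : ⟪dl w, ζ⟫_ℂ = ζ w := by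
  simp [dl, lp.inner_single_left]

lemma norm_dl (w : List I) : ‖dl w‖ = 1 := by simp [dl]

lemma coe_dl (w : List I) : ⇑(dl w) = Pi.single w 1 := rfl

lemma coe_vac : ⇑(dl ([] : List I)) = dz := rfl

namespace FockAux

omit [DecidableEq I] in
lemma two_toReal_pos : 0 < (2 : ℝ≥0∞).toReal := by norm_num

omit [DecidableEq I] in
lemma hasSum_sq (ζ : FH I) : HasSum (fun w => ‖ζ w‖ ^ 2) (‖ζ‖ ^ 2) := by
  simpa using lp.hasSum_norm two_toReal_pos ζ

end FockAux

open FockAux

omit [DecidableEq I] in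
lemma tsum_sq (ζ : FH I) : ∑' w, ‖ζ w‖ₑ ^ 2 = ‖ζ‖ₑ ^ 2 := by
  have h := hasSum_sq ζ
  have e : ∀ w, ‖ζ w‖ₑ ^ 2 = ENNReal.ofReal (‖ζ w‖ ^ 2) := fun w => by
    rw [ENNReal.ofReal_pow (norm_nonneg _), ofReal_norm]
  simp only [e]
  rw [← ENNReal.ofReal_tsum_of_nonneg (fun _ => by positivity) h.summable, h.tsum_eq,
    ENNReal.ofReal_pow (norm_nonneg _), ofReal_norm]

namespace FockAux

omit [DecidableEq I] in
lemma memℓp_comp {φ : List I → List I} (hφ : Function.Injective φ) (ζ : FH I) :
    Memℓp (E := fun _ : List I => ℂ) (fun w => ζ (φ w)) 2 :=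
  memℓp_gen (((lp.memℓp ζ).summable two_toReal_pos).comp_injective hφ)

/-- The pullback along an injective map of words, as a linear map. -/
noncomputable def pullL {φ : List I → List I} (hφ : Function.Injective φ) : FH I →ₗ[ℂ] FH I where
  toFun ζ := ⟨fun w => ζ (φ w), memℓp_comp hφ ζ⟩
  map_add' _ _ := rfl
  map_smul' _ _ := rfl

omit [DecidableEq I] in
lemma norm_pullL {φ : List I → List I} (hφ : Function.Injective φ) (ζ : FH I) :
    ‖pullL hφ ζ‖ ≤ 1 * ‖ζ‖ := by
  rw [one_mul]
  refine lp.norm_le_of_forall_sum_le two_toReal_pos (norm_nonneg _) fun s => ?_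
  have := lp.sum_rpow_le_norm_rpow two_toReal_pos ζ (s.map ⟨φ, hφ⟩)
  rwa [Finset.sum_map] at this

/-- The pullback along an injective map of words. -/
noncomputable def pull {φ : List I → List I} (hφ : Function.Injective φ) : FH I →L[ℂ] FH I :=
  (pullL hφ).mkContinuous 1 (norm_pullL hφ)

omit [DecidableEq I] in
lemma pull_apply {φ : List I → List I} (hφ : Function.Injective φ) (ζ : FH I) (w : List I) :
    pull hφ ζ w = ζ (φ w) := rfl

lemma adj_pull_range {φ : List I → List I} (hφ : Function.Injective φ) (ζ : FH I) (w : List I) :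
    (star (pull hφ)) ζ (φ w) = ζ w := by
  rw [← inner_dl, ContinuousLinearMap.star_eq_adjoint, ContinuousLinearMap.adjoint_inner_right,
    ← inner_dl]
  congr 1
  refine lp.ext (funext fun u => ?_)
  rw [pull_apply, coe_dl, coe_dl]
  simp [Pi.single_apply, hφ.eq_iff]

lemma adj_pull_off {φ : List I → List I} (hφ : Function.Injective φ) (ζ : FH I) {w : List I}
    (hw : ∀ u, φ u ≠ w) : (star (pull hφ)) ζ w = 0 := by
  rw [← inner_dl, ContinuousLinearMap.star_eq_adjoint, ContinuousLinearMap.adjoint_inner_right]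
  have : pull hφ (dl w) = 0 := by
    refine lp.ext (funext fun u => ?_)
    rw [pull_apply, coe_dl]
    simp [hw u]
  rw [this, inner_zero_left]

end FockAux

theorem exists_field : ∃ s d : I → FH I →L[ℂ] FH I, (∀ e ζ, ⇑(s e ζ) = sL e ⇑ζ) ∧
    (∀ e ζ, ⇑(d e ζ) = sR e ⇑ζ) ∧ (∀ e, IsSelfAdjoint (s e)) ∧ ∀ e, IsSelfAdjoint (d e) := by
  have h1 : ∀ e : I, Function.Injective fun w : List I => e :: w := fun e =>
    List.cons_injective
  have h2 : ∀ e : I, Function.Injective fun w : List I => w ++ [e] := fun e =>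
    List.append_left_injective _
  refine ⟨fun e => star (pull (h1 e)) + pull (h1 e), fun e => star (pull (h2 e)) + pull (h2 e),
    fun e ζ => funext fun w => ?_, fun e ζ => funext fun w => ?_,
    fun e => IsSelfAdjoint.star_add_self _, fun e => IsSelfAdjoint.star_add_self _⟩
  · rw [add_apply, lp.coeFn_add, Pi.add_apply, pull_apply, sL_apply]
    congr 1
    split_ifs with h
    · rcases w with _ | ⟨a, w⟩
      · simp at h
      · obtain rfl : a = e := by simpa using h
        exact adj_pull_range (h1 a) ζ w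
    · refine adj_pull_off _ _ fun u hu => h ?_
      rw [← hu]; rfl
  · rw [add_apply, lp.coeFn_add, Pi.add_apply, pull_apply, sR_apply]
    congr 1
    split_ifs with h
    · rcases List.eq_nil_or_concat w with rfl | ⟨w, b, rfl⟩
      · simp at h
      · obtain rfl : b = e := by simpa using h
        rw [List.concat_eq_append, List.dropLast_concat]
        exact adj_pull_range (h2 b) ζ w
    · refine adj_pull_off _ _ fun u hu => h ?_
      rw [← hu]; simp

/-- The left field operators. -/
noncomputable def fs : I → FH I →L[ℂ] FH I := exists_field.choose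

/-- The right field operators. -/
noncomputable def fd : I → FH I →L[ℂ] FH I := exists_field.choose_spec.choose

lemma coe_fs (e : I) (ζ : FH I) : ⇑(fs e ζ) = sL e ⇑ζ := exists_field.choose_spec.choose_spec.1 e ζ

lemma coe_fd (e : I) (ζ : FH I) : ⇑(fd e ζ) = sR e ⇑ζ :=
  exists_field.choose_spec.choose_spec.2.1 e ζ

lemma fs_sa (e : I) : IsSelfAdjoint (fs e) := exists_field.choose_spec.choose_spec.2.2.1 e

lemma fd_sa (e : I) : IsSelfAdjoint (fd e) := exists_field.choose_spec.choose_spec.2.2.2 e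

lemma fs_fd (e f : I) (ζ : FH I) : fs e (fd f ζ) = fd f (fs e ζ) :=
  lp.ext (by rw [coe_fs, coe_fd, coe_fd, coe_fs, sL_sR])

lemma fd_vac (e : I) : fd e (dl []) = fs e (dl []) :=
  lp.ext (by rw [coe_fs, coe_fd, coe_vac, sR_dz])

namespace FockAux

section act

variable {ι H : Type} [NormedAddCommGroup H] [InnerProductSpace ℂ H]

lemma act_nil (Y : ι → H →L[ℂ] H) (ξ : H) : act Y [] ξ = ξ := rfl

lemma act_cons (Y : ι → H →L[ℂ] H) (i : ι) (w : List ι) (ξ : H) :
    act Y (i :: w) ξ = Y i (act Y w ξ) := rfl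

lemma act_append (Y : ι → H →L[ℂ] H) (u w : List ι) (ξ : H) :
    act Y (u ++ w) ξ = act Y u (act Y w ξ) := by
  simp [act, List.foldr_append]

lemma act_eq_prod (Y : ι → H →L[ℂ] H) (w : List ι) (ξ : H) : act Y w ξ = (w.map Y).prod ξ := by
  induction w with
  | nil => rfl
  | cons i w ih => rw [act_cons, ih]; rfl

lemma act_comm {Y : ι → H →L[ℂ] H} {x : H →L[ℂ] H} (h : ∀ i ξ, x (Y i ξ) = Y i (x ξ))
    (w : List ι) (ξ : H) : x (act Y w ξ) = act Y w (x ξ) := by
  induction w with
  | nil => rfl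
  | cons i w ih => rw [act_cons, act_cons, h, ih]

lemma inner_act [CompleteSpace H] {Y : ι → H →L[ℂ] H} (h : ∀ i, IsSelfAdjoint (Y i)) (w : List ι)
    (ξ η : H) : ⟪ξ, act Y w η⟫_ℂ = ⟪act Y w.reverse ξ, η⟫_ℂ := by
  induction w generalizing ξ with
  | nil => rfl
  | cons i w ih =>
    rw [act_cons, List.reverse_cons, act_append, ← ih, ← (h i).isSymmetric.apply_clm]
    rfl

end act

lemma act_fs_vac (w : List I) : act fs w (dl []) = act fd w.reverse (dl []) := by
  induction w with
  | nil => rfl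
  | cons e w ih =>
    rw [act_cons, ih, act_comm (fun f ζ => fs_fd e f ζ), List.reverse_cons, act_append, ← fd_vac]
    rfl

lemma fs_dl (e : I) (w : List I) :
    fs e (dl w) = dl (e :: w) + if w.head? = some e then dl w.tail else 0 := by
  refine lp.ext (funext fun u => ?_)
  rw [coe_fs, sL_apply, lp.coeFn_add, Pi.add_apply, coe_dl, coe_dl]
  congr 1
  · rcases u with _ | ⟨a, u⟩
    · simp
    · by_cases h : a = e <;> simp [Pi.single_apply, h]
  · rcases w with _ | ⟨a, w⟩
    · simp
    · by_cases h : a = e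
      · simp [Pi.single_apply, h, coe_dl]
      · simp [h, Ne.symm h]

lemma dl_mem_span (w : List I) :
    dl w ∈ Submodule.span ℂ (Set.range fun u : List I => act fs u (dl [])) := by
  have inv : ∀ (e : I) (ζ : FH I), ζ ∈ Submodule.span ℂ (Set.range fun u : List I =>
      act fs u (dl [])) → fs e ζ ∈ Submodule.span ℂ (Set.range fun u : List I =>
      act fs u (dl [])) := by
    intro e ζ hζ
    induction hζ using Submodule.span_induction with
    | mem x hx =>
      obtain ⟨u, rfl⟩ := hx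
      exact Submodule.subset_span ⟨e :: u, rfl⟩
    | zero => simp
    | add x y _ _ hx hy => rw [map_add]; exact add_mem hx hy
    | smul c x _ hx => rw [map_smul]; exact Submodule.smul_mem _ _ hx
  induction h : w.length using Nat.strong_induction_on generalizing w with
  | _ n ih =>
    rcases w with _ | ⟨e, w⟩
    · exact Submodule.subset_span ⟨[], rfl⟩
    · have h1 := inv e _ (ih _ (by simp [← h]) w rfl)
      have h2 : (if w.head? = some e then dl w.tail else 0) ∈ Submodule.span ℂ
          (Set.range fun u : List I => act fs u (dl [])) := by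
        split_ifs
        · exact ih _ (by simp only [← h, List.length_tail, List.length_cons]; omega) w.tail rfl
        · exact zero_mem _
      have := sub_mem h1 h2
      rwa [fs_dl, add_sub_cancel_right] at this

lemma dense_span :
    Dense (Submodule.span ℂ (Set.range fun u : List I => act fs u (dl [])) : Set (FH I)) := by
  rw [Submodule.dense_iff_topologicalClosure_eq_top, Submodule.topologicalClosure_eq_top_iff,
    Submodule.eq_bot_iff]
  intro ζ hζ
  refine lp.ext (funext fun w => ?_)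
  rw [← inner_dl]
  exact hζ _ (dl_mem_span w)

/-- The commutant of the right field operators. -/
noncomputable def MM (I : Type) [DecidableEq I] : VonNeumannAlgebra (FH I) where
  toStarSubalgebra := StarSubalgebra.centralizer ℂ (Set.range fd)
  centralizer_centralizer' := by simp

lemma mem_MM {x : FH I →L[ℂ] FH I} : x ∈ MM I ↔ ∀ e ζ, x (fd e ζ) = fd e (x ζ) := by
  change x ∈ StarSubalgebra.centralizer ℂ (Set.range fd) ↔ _
  rw [StarSubalgebra.mem_centralizer_iff]
  constructor
  · intro h e ζ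
    exact (congrArg (fun T : FH I →L[ℂ] FH I => T ζ) (h _ ⟨e, rfl⟩).1).symm
  · rintro h _ ⟨e, rfl⟩
    rw [(fd_sa e).star_eq, and_self]
    exact ContinuousLinearMap.ext fun ζ => (h e ζ).symm

lemma fs_mem_MM (e : I) : fs e ∈ MM I := mem_MM.2 (fs_fd e)

lemma smul_mem_MM (c : ℂ) {x : FH I →L[ℂ] FH I} (hx : x ∈ MM I) : c • x ∈ MM I :=
  mem_MM.2 fun e ζ => by simp [mem_MM.1 hx]

omit [DecidableEq I] in
lemma inner_star (x : FH I →L[ℂ] FH I) (ξ η : FH I) : ⟪ξ, x η⟫_ℂ = ⟪(star x) ξ, η⟫_ℂ := by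
  rw [ContinuousLinearMap.star_eq_adjoint, ContinuousLinearMap.adjoint_inner_left]

lemma exists_poly {ζ : FH I}
    (hζ : ζ ∈ Submodule.span ℂ (Set.range fun u : List I => act fs u (dl []))) :
    ∃ p ∈ MM I, p (dl []) = ζ ∧
      ∀ x ∈ MM I, ⟪dl [], x (p (dl []))⟫_ℂ = ⟪dl [], p (x (dl []))⟫_ℂ := by
  induction hζ using Submodule.span_induction with
  | mem _ hx =>
    obtain ⟨u, rfl⟩ := hx
    refine ⟨(u.map fs).prod, list_prod_mem fun y hy => ?_, (act_eq_prod _ _ _).symm,
      fun x hx => ?_⟩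
    · obtain ⟨e, -, rfl⟩ := List.mem_map.1 hy
      exact fs_mem_MM e
    · rw [← act_eq_prod, ← act_eq_prod, act_fs_vac, act_comm (mem_MM.1 hx), inner_act fd_sa,
        inner_act fs_sa, act_fs_vac]
  | zero => exact ⟨0, zero_mem _, rfl, fun x _ => by simp⟩
  | add _ _ _ _ hx hy =>
    obtain ⟨p, hp, rfl, hp'⟩ := hx
    obtain ⟨q, hq, rfl, hq'⟩ := hy
    exact ⟨p + q, add_mem hp hq, rfl, fun x hx => by
      simp only [add_apply, map_add, inner_add_right, hp' x hx, hq' x hx]⟩
  | smul c _ _ hx =>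
    obtain ⟨p, hp, rfl, hp'⟩ := hx
    exact ⟨c • p, smul_mem_MM c hp, rfl, fun x hx => by
      simp only [smul_apply, map_smul, inner_smul_right, hp' x hx]⟩

lemma norm_star_le {x : FH I →L[ℂ] FH I} (hx : x ∈ MM I) :
    ‖(star x) (dl [])‖ ≤ ‖x (dl [])‖ := by
  have key : ∀ ζ : FH I, ‖⟪(star x) (dl []), ζ⟫_ℂ‖ ≤ ‖x (dl [])‖ * ‖ζ‖ := by
    intro ζ
    refine dense_span.induction (P := fun ζ : FH I =>
      ‖⟪(star x) (dl []), ζ⟫_ℂ‖ ≤ ‖x (dl [])‖ * ‖ζ‖) (fun ζ hζ => ?_) ?_ ζ
    · obtain ⟨p, hp, rfl, hp'⟩ := exists_poly hζ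
      have h1 := hp' _ (star_mem hp)
      rw [inner_star, star_star, inner_star p (dl []), inner_self_eq_norm_sq_to_K,
        inner_self_eq_norm_sq_to_K] at h1
      have h2 : ‖p (dl [])‖ ^ 2 = ‖(star p) (dl [])‖ ^ 2 := by exact_mod_cast h1
      rw [pow_left_inj₀ (norm_nonneg _) (norm_nonneg _) two_ne_zero] at h2
      rw [← inner_star, hp' x hx, inner_star, h2, mul_comm]
      exact norm_inner_le_norm _ _
    · exact isClosed_le (by fun_prop) (by fun_prop)
  have := key ((star x) (dl []))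
  rw [inner_self_eq_norm_sq_to_K, norm_pow, RCLike.norm_ofReal, abs_norm, sq] at this
  rcases (norm_nonneg ((star x) (dl []))).eq_or_lt with h | h
  · rw [← h]; exact norm_nonneg _
  · exact le_of_mul_le_mul_right this h

lemma norm_star_eq {x : FH I →L[ℂ] FH I} (hx : x ∈ MM I) :
    ‖(star x) (dl [])‖ = ‖x (dl [])‖ :=
  le_antisymm (norm_star_le hx) (by simpa using norm_star_le (star_mem hx))

lemma re_inner_star {x y : FH I →L[ℂ] FH I} (hx : x ∈ MM I) (hy : y ∈ MM I) :
    (⟪x (dl []), y (dl [])⟫_ℂ).re = (⟪(star y) (dl []), (star x) (dl [])⟫_ℂ).re := by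
  have h := norm_star_eq (add_mem hx hy)
  rw [star_add, add_comm (star x), add_apply,
    add_apply] at h
  have h1 := norm_add_sq (𝕜 := ℂ) (x (dl [])) (y (dl []))
  have h2 := norm_add_sq (𝕜 := ℂ) ((star y) (dl [])) ((star x) (dl []))
  rw [h, norm_star_eq hx, norm_star_eq hy, h1] at h2
  simp only [RCLike.re_to_complex] at h2
  linarith

end FockAux

theorem exists_M : ∃ M : VonNeumannAlgebra (FH I), (∀ e, fs e ∈ M) ∧
    (∀ x ∈ M, ∀ y ∈ M, ⟪dl [], (x * y) (dl [])⟫_ℂ = ⟪dl [], (y * x) (dl [])⟫_ℂ) ∧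
    ∀ x ∈ M, ⟪dl [], (star x * x) (dl [])⟫_ℂ = 0 → x = 0 := by
  refine ⟨MM I, fs_mem_MM, fun x hx y hy => ?_, fun x hx h => ?_⟩
  · rw [mul_apply_eq_comp, mul_apply_eq_comp, inner_star x (dl []), inner_star y (dl [])]
    have h1 := re_inner_star (star_mem hx) hy
    have h2 := re_inner_star (star_mem hx) (smul_mem_MM Complex.I hy)
    rw [star_star] at h1 h2
    rw [star_smul, smul_apply, smul_apply,
      inner_smul_right, inner_smul_left] at h2
    refine Complex.ext h1 ?_
    simpa using h2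
  · rw [mul_apply_eq_comp, inner_star, star_star, inner_self_eq_zero] at h
    refine ContinuousLinearMap.ext_on dense_span ?_
    rintro _ ⟨u, rfl⟩
    simp only [zero_apply]
    rw [act_fs_vac, act_comm (mem_MM.1 hx), h, act_eq_prod, map_zero]

end Vale.Agent.P087
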