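import Vale.Agent.P087.Defs

/-! The projection onto the closed span of the monomial vectors. -/

namespace Vale.Agent.P087

open scoped InnerProductSpace ENNReal

variable {ι : Type} {H : Type} [NormedAddCommGroup H] [InnerProductSpace ℂ H] [CompleteSpace H]
  {Y : ι → H →L[ℂ] H} {Ω : H}

omit [CompleteSpace H] in
lemma act_append (Y : ι → H →L[ℂ] H) (u v : List ι) (ξ : H) :
    act Y (u ++ v) ξ = act Y u (act Y v ξ) := List.foldr_append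

lemma inner_act (hY : ∀ i, IsSelfAdjoint (Y i)) (w : List ι) (ξ ζ : H) :
    ⟪ξ, act Y w ζ⟫_ℂ = ⟪act Y w.reverse ξ, ζ⟫_ℂ := by
  induction w generalizing ξ with
  | nil => rfl
  | cons i w ih =>
    rw [List.reverse_cons, act_append, ← ih]
    exact ((hY i).isSymmetric ξ _).symm

/-- The span of the monomial vectors. -/
def NS (Y : ι → H →L[ℂ] H) (Ω : H) : Submodule ℂ H :=
  Submodule.span ℂ (Set.range fun w => act Y w Ω)

/-- The projection. -/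
noncomputable def PP (Y : ι → H →L[ℂ] H) (Ω : H) : H →L[ℂ] H :=
  (NS Y Ω).topologicalClosure.starProjection

lemma PP_cl (δ : H) : PP Y Ω δ ∈ closure (NS Y Ω : Set H) :=
  Submodule.starProjection_apply_mem (NS Y Ω).topologicalClosure δ

lemma PP_mem (δ : H) : PP Y Ω δ ∈ L2 Y Ω := by
  refine closure_mono (fun ξ hξ => ?_) (PP_cl δ)
  let A := Subalgebra.centralizer ℂ (Set.centralizer (Set.range Y))
  change ∃ x ∈ A, ξ = x Ω
  induction hξ using Submodule.span_induction with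
  | mem ξ h =>
    obtain ⟨w, rfl⟩ := h
    induction w with
    | nil => exact ⟨1, one_mem _, rfl⟩
    | cons i w ih =>
      obtain ⟨x, hx, h⟩ := ih
      exact ⟨Y i * x, mul_mem (Set.subset_centralizer_centralizer ⟨i, rfl⟩) hx, congrArg (Y i) h⟩
  | zero => exact ⟨0, zero_mem _, rfl⟩
  | add _ _ _ _ h h' =>
    obtain ⟨x, hx, rfl⟩ := h
    obtain ⟨y, hy, rfl⟩ := h'
    exact ⟨x + y, add_mem hx hy, rfl⟩
  | smul c _ _ h =>
    obtain ⟨x, hx, rfl⟩ := h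
    exact ⟨c • x, A.smul_mem hx c, rfl⟩

lemma PP_act (w : List ι) : PP Y Ω (act Y w Ω) = act Y w Ω :=
  Submodule.starProjection_eq_self_iff.2
    (Submodule.le_topologicalClosure _ (Submodule.subset_span ⟨w, rfl⟩))

lemma inner_PP (ξ ζ : H) : ⟪PP Y Ω ξ, ζ⟫_ℂ = ⟪ξ, PP Y Ω ζ⟫_ℂ :=
  Submodule.inner_starProjection_left_eq_right _ _ _

lemma act_PP (hY : ∀ i, IsSelfAdjoint (Y i)) (w : List ι) (δ : H) :
    ⟪Ω, act Y w (PP Y Ω δ)⟫_ℂ = ⟪Ω, act Y w δ⟫_ℂ := by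
  rw [inner_act hY, inner_act hY, ← inner_PP, PP_act]

lemma PP_sq (δ : H) : ‖δ‖ ^ 2 = ‖PP Y Ω δ‖ ^ 2 + ‖δ - PP Y Ω δ‖ ^ 2 := by
  have := Submodule.norm_sq_eq_add_norm_sq_starProjection δ (NS Y Ω).topologicalClosure
  rwa [Submodule.starProjection_orthogonal_val] at this

lemma PP_le {δ : H} {C : ℝ} (hC : 0 ≤ C) (h : ∀ η ∈ NS Y Ω, ‖⟪δ, η⟫_ℂ‖ ≤ C * ‖η‖) :
    ‖PP Y Ω δ‖ ≤ C := by
  have h1 : PP Y Ω δ ∈ {η | ‖⟪δ, η⟫_ℂ‖ ≤ C * ‖η‖} :=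
    closure_minimal (t := {η | ‖⟪δ, η⟫_ℂ‖ ≤ C * ‖η‖}) h
      (isClosed_le (by fun_prop) (by fun_prop)) (PP_cl δ)
  have h2 : ⟪δ, PP Y Ω δ⟫_ℂ = ⟪PP Y Ω δ, PP Y Ω δ⟫_ℂ := by
    rw [inner_PP, show PP Y Ω (PP Y Ω δ) = PP Y Ω δ from
      Submodule.starProjection_eq_self_iff.2 (Submodule.starProjection_apply_mem _ δ)]
  rw [Set.mem_ofPred_eq, h2, inner_self_eq_norm_sq_to_K] at h1
  simp only [norm_pow, RCLike.norm_ofReal, abs_norm] at h1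
  nlinarith [norm_nonneg (PP Y Ω δ)]

variable [Fintype ι] [DecidableEq ι]

lemma le_fisher (hY : ∀ i, IsSelfAdjoint (Y i)) (hΩ : ‖Ω‖ = 1) {b : ℝ} (hb : 0 < b)
    (h : ∀ i, ‖Y i Ω‖ ^ 2 ≤ b) : ENNReal.ofReal (Fintype.card ι / b) ≤ fisher Y Ω := by
  refine le_iInf₂ fun ξ hξ => ENNReal.ofReal_le_ofReal ?_
  rw [div_eq_mul_inv, ← nsmul_eq_mul, ← Finset.card_univ, ← Finset.sum_const]
  refine Finset.sum_le_sum fun j _ => ?_
  have h1 := (hξ j).2 [j]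
  rw [inner_act hY] at h1
  have h2 := norm_inner_le_norm (𝕜 := ℂ) (Y j Ω) (ξ j)
  simp [mom, act, inner_self_eq_norm_sq_to_K, hΩ] at h1
  rw [h1, norm_one] at h2
  rw [inv_le_iff_one_le_mul₀ hb]
  calc 1 ≤ (‖Y j Ω‖ * ‖ξ j‖) ^ 2 := one_le_pow₀ h2
    _ = ‖ξ j‖ ^ 2 * ‖Y j Ω‖ ^ 2 := by ring
    _ ≤ _ := by gcongr; exact h j

end Vale.Agent.P087
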