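import Vale.Agent.P087.Pot
import Vale.Agent.P087.Proj
import Vale.Agent.P087.Fock

/-! Bounds for the free Fisher information of the noisy observations. -/

namespace Vale.Agent.P087

open Finset
open scoped InnerProductSpace ENNReal

section gen

variable {I : Type} [DecidableEq I]

lemma fs_dl {e : I} {w : List I} (h : w.head? ≠ some e) : fs e (dl w) = dl (e :: w) := by
  refine lp.ext (funext fun v => ?_)
  have : e :: v ≠ w := fun h' => h (by rw [← h']; rfl)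
  rcases v with _ | ⟨a, v⟩ <;>
    simp [coe_fs, coe_dl, sL_apply, Pi.single_apply, this, ite_and]

omit [DecidableEq I] in
lemma sq_add {x y : FH I} (h : ⟪x, y⟫_ℂ = 0) : ‖x + y‖ ^ 2 = ‖x‖ ^ 2 + ‖y‖ ^ 2 := by
  simpa only [sq] using norm_add_sq_eq_norm_sq_add_norm_sq_of_inner_eq_zero x y h

lemma c3_le (e x y z : I) {K : List I → List I → ℂ} {C : ℝ} (h : ∀ u v, ‖K u v‖ ≤ C) :
    ‖c3 e x y z K [] []‖ ≤ 5 * C := by
  have h0 : 0 ≤ C := (norm_nonneg _).trans (h [] [])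
  have h1 : ∀ (p : Prop) [Decidable p] (a : ℂ), ‖if p then a else 0‖ ≤ ‖a‖ := fun p _ a => by
    split_ifs <;> simp
  have h2 : ∀ (p : Prop) [Decidable p] u v u' v', ‖(if p then K u v else 0) + K u' v'‖ ≤ 2 * C :=
    fun p _ u v u' v' => (norm_add_le _ _).trans (by linarith [h1 p (K u v), h u v, h u' v'])
  simp only [c3_apply, Pi.add_apply, ite_apply, Pi.zero_apply, P2_apply, sR_apply, sL_apply,
    Module.End.mul_apply, List.head?_nil, List.getLast?_nil, reduceCtorEq, if_false, zero_add]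
  refine (norm_add₃_le.trans (add_le_add_three ((h1 _ _).trans (h2 _ _ _ _ _))
    ((h1 _ _).trans (h _ _)) ((h1 _ _).trans (h2 _ _ _ _ _)))).trans_eq (by ring)

end gen

variable {F : Type} [DecidableEq F] {c : ℝ} {θ : ℝ}

/-- The noisy observations. -/
noncomputable abbrev YY (c : ℝ) : NN F → FH (II F) →L[ℂ] FH (II F) :=
  fun j => XX (fun i => fs (.inl i)) j + (c : ℂ) • fs (.inr j)

lemma XX_sa (i : NN F) : IsSelfAdjoint (XX (fun i : NN F => fs (.inl i : II F)) i) := by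
  cases i with
  | inl h => exact fs_sa _
  | inr j =>
    refine (fs_sa _).add ?_
    simp only [IsSelfAdjoint, ZZ, star_add, star_mul, (fs_sa _).star_eq, mul_assoc, add_comm]

lemma YY_sa (i : NN F) : IsSelfAdjoint (YY c i) :=
  (XX_sa i).add (IsSelfAdjoint.smul (by simp [IsSelfAdjoint]) (fs_sa _))

lemma YY_inl (h : Fin 3 × F) (ζ : FH (II F)) :
    YY c (.inl h) ζ = fs (.inl (.inl h)) ζ + (c : ℂ) • fs (.inr (.inl h)) ζ := rfl

lemma YY_inr (j : F × F × F) (ζ : FH (II F)) : YY c (.inr j) ζ = fs (.inl (.inr j)) ζ +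
    (fs (hid 0 j.1) (fs (hid 1 j.2.1) (fs (hid 2 j.2.2) ζ)) +
      fs (hid 2 j.2.2) (fs (hid 1 j.2.1) (fs (hid 0 j.1) ζ))) + (c : ℂ) • fs (.inr (.inr j)) ζ := rfl

lemma coe_act (w : List (NN F)) : ⇑(act (YY c) w (dl [])) = zw c w := by
  induction w with
  | nil => rfl
  | cons i w ih =>
    change ⇑(YY c i (act (YY c) w (dl []))) = YL c i (zw c w)
    cases i <;> simp only [YY_inl, YY_inr, YL_inl, YL_inr, lp.coeFn_add, lp.coeFn_smul, coe_fs, ih]

lemma act_fd (e : II F) (w : List (NN F)) (ζ : FH (II F)) :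
    act (YY c) w (fd e ζ) = fd e (act (YY c) w ζ) := by
  induction w with
  | nil => rfl
  | cons i w ih =>
    change YY c i (act (YY c) w (fd e ζ)) = fd e (YY c i (act (YY c) w ζ))
    cases i <;> simp only [ih, YY_inl, YY_inr, fs_fd, map_add, map_smul]

/-- The conjugate variables. -/
noncomputable def xi (c θ : ℝ) (j : NN F) : FH (II F) :=
  PP (YY c) (dl []) ((θ : ℂ) • dl [.inr j])

lemma isConj (h : θ * c = 1) : IsConj (YY c) (dl []) (xi (F := F) c θ) := fun j =>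
  ⟨PP_mem _, fun w => by
    have h1 : ∀ ζ, act (YY c) w ((θ : ℂ) • ζ) = (θ : ℂ) • act (YY c) w ζ := fun ζ => by
      induction w with
      | nil => rfl
      | cons i w ih => exact (congrArg (YY c i) ih).trans (map_smul _ _ _)
    have h2 := congrFun (congrFun (DD_zw (c : ℂ) j w) []) []
    rw [xi, act_PP YY_sa, h1, ← fs_dl (by simp), ← fd_vac, act_fd, inner_smul_right, inner_dl,
      coe_fd, coe_act, sR_apply, if_neg (by simp), zero_add]
    refine (congrArg _ h2).trans ?_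
    simp only [Pi.smul_apply, smul_eq_mul, ← mul_assoc, ← Complex.ofReal_mul, h, mom, inner_dl,
      coe_act, Finset.sum_apply, ite_apply, ten_apply, Pi.zero_apply, Complex.ofReal_one, one_mul]⟩

lemma norm_G (e f : II F) (h : e ≠ f) : ‖dl [e] + (c : ℂ) • dl [f]‖ ^ 2 = 1 + c ^ 2 := by
  rw [sq_add (by rw [inner_smul_right]; simp [inner_dl, coe_dl, h]), norm_smul, norm_dl, norm_dl]
  simp

/-- The planted vector. -/
noncomputable def zv (j : F × F × F) : FH (II F) :=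
  dl [hid 0 j.1, hid 1 j.2.1, hid 2 j.2.2] + dl [hid 2 j.2.2, hid 1 j.2.1, hid 0 j.1]

lemma norm_zv (j : F × F × F) : ‖zv j‖ ^ 2 = 2 := by
  rw [zv, sq_add (by simp [inner_dl, coe_dl]), norm_dl, norm_dl]
  norm_num

lemma YY_vac (j : F × F × F) : YY c (.inr j) (dl []) =
    dl [.inl (.inr j)] + (c : ℂ) • dl [.inr (.inr j)] + zv j := by
  rw [YY_inr, zv]
  repeat rw [fs_dl (by simp)]
  abel

lemma norm_YY (i : NN F) : ‖YY c i (dl [])‖ ^ 2 ≤ 3 + c ^ 2 := by
  cases i with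
  | inl h =>
    rw [YY_inl, fs_dl (by simp), fs_dl (by simp), norm_G _ _ (by simp)]
    linarith
  | inr j =>
    rw [YY_vac, sq_add (by
      simp only [zv, inner_add_left, inner_add_right, inner_smul_left, inner_dl, coe_dl]; simp), norm_zv, norm_G _ _ (by simp)]
    linarith

lemma xi_le (j : NN F) : ‖xi c θ j‖ ≤ |θ| :=
  PP_le (abs_nonneg _) fun η _ => (norm_inner_le_norm _ _).trans_eq (by
    rw [norm_smul, norm_dl]; simp)

variable [Fintype F]

lemma NS_good (h : θ * c = 1) {η : FH (II F)} (hη : η ∈ NS (YY c) (dl [])) :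
    ⇑η ∈ Good (θ : ℂ) := by
  induction hη using Submodule.span_induction with
  | mem ξ h' =>
    obtain ⟨w, rfl⟩ := h'
    exact coe_act w ▸ zw_good (by exact_mod_cast h) w
  | zero => exact zero_mem _
  | add _ _ _ _ h h' => exact add_mem h h'
  | smul a _ _ h => exact Submodule.smul_mem _ a h

lemma xi_hid (h : θ * c = 1) (i : Fin 3 × F) :
    ‖xi c θ (.inl i)‖ ≤ 1 + 10 * Fintype.card F ^ 3 := by
  refine PP_le (by positivity) fun η hη => ?_
  obtain ⟨h1, h2, -⟩ := NS_good h hη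
  have hb : ∀ v, ‖η v‖ ≤ ‖η‖ := lp.norm_apply_le_norm (by simp) η
  have h4 : ∀ e j, (θ : ℂ) • cz e j (DD (.inr (.inr j)) η) = cz e j (DD (.inl (.inr j)) η) :=
    fun e j => by rw [h1, map_smul]
  have h3 := h2 i
  simp only [smul_add, smul_sum, h4] at h3
  replace h3 := congrFun (congrFun h3 []) []
  simp only [Pi.add_apply, Finset.sum_apply, Pi.smul_apply, cz, LinearMap.add_apply, DD_apply, List.nil_append] at h3
  rw [inner_smul_left, inner_dl, Complex.conj_ofReal, ← smul_eq_mul, eq_sub_of_add_eq h3.symm,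
    add_mul, one_mul]
  refine (norm_sub_le _ _).trans (add_le_add (hb _) ((norm_sum_le _ _).trans
    ((sum_le_card_nsmul _ _ (10 * ‖η‖) fun j _ => ?_).trans_eq (by simp; ring))))
  exact (norm_add_le _ _).trans ((add_le_add (c3_le (C := ‖η‖) _ _ _ _ fun u v => hb _)
    (c3_le (C := ‖η‖) _ _ _ _ fun u v => hb _)).trans_eq (by ring))

lemma xi_obs (h : θ * c = 1) (j : F × F × F) :
    (1 + c ^ 2) ^ 2 * ‖xi c θ (.inr j)‖ ^ 2 ≤ 1 + c ^ 2 ∧ (1 + c ^ 2) ^ 2 * ‖xi c θ (.inr j)‖ ^ 2 =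
      c ^ 2 - 1 + ‖PP (YY c) (dl []) (zv j)‖ ^ 2 := by
  have h1 : PP (YY c) (dl []) (dl [.inl (.inr j)]) = xi c θ (.inr j) := by
    rw [xi, ← sub_eq_zero, ← map_sub, ← norm_le_zero_iff]
    refine PP_le le_rfl fun η hη => ?_
    have := congrFun (congrFun ((NS_good h hη).1 j) []) []
    rw [inner_sub_left, inner_smul_left, inner_dl, inner_dl, Complex.conj_ofReal]
    simpa [DD_apply, sub_eq_zero] using this
  have h2 : PP (YY c) (dl []) (dl [.inl (.inr j)] + (c : ℂ) • dl [.inr (.inr j)]) =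
      ((1 + c ^ 2 : ℝ) : ℂ) • xi c θ (.inr j) := by
    rw [map_add, h1, Complex.ofReal_add, add_smul, Complex.ofReal_one, one_smul, xi,
      ← map_smul _ (((c ^ 2 : ℝ) : ℂ)), smul_smul, ← Complex.ofReal_mul,
      show c ^ 2 * θ = c by rw [sq, mul_assoc, mul_comm c θ, h, mul_one]]
  have h3 := PP_act (Y := YY c) (Ω := dl []) [.inr j]
  change PP _ _ (YY c _ (dl [])) = YY c _ (dl []) at h3
  rw [YY_vac, map_add] at h3
  have h4 := PP_sq (Y := YY c) (Ω := dl []) (dl [.inl (.inr j)] + (c : ℂ) • dl [.inr (.inr j)])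
  have h5 := PP_sq (Y := YY c) (Ω := dl []) (zv j)
  rw [sub_eq_sub_iff_add_eq_add.2 (h3.symm.trans (add_comm _ _)), norm_sub_rev, h2,
    norm_G _ _ (by simp), norm_smul, Complex.norm_real, Real.norm_of_nonneg (by positivity),
    mul_pow] at h4
  rw [norm_zv] at h5
  exact ⟨by linarith [sq_nonneg ‖zv j - PP (YY c) (dl []) (zv j)‖], by linarith⟩

lemma zv_le {ρ : ℕ} (hρ : Fintype.card F = ρ ^ 2) (h2 : 2 ≤ ρ) (h : θ * c = 1)
    (hθ : θ ^ 2 * (10528 * ρ ^ 3) ≤ 1) (j : F × F × F) : ‖PP (YY c) (dl []) (zv j)‖ ≤ 1 := by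
  refine PP_le zero_le_one fun η hη => ?_
  have h3 := pot (r := ρ) (q := ENNReal.ofReal (1 / 4)) (by exact_mod_cast hρ)
    (by exact_mod_cast one_le_two.trans h2) (by simp)
    (by rw [← ENNReal.ofReal_ofNat, ← ENNReal.ofReal_mul (by norm_num)]; norm_num) (NS_good h hη)
    (by
      rw [← ofReal_norm, ← ENNReal.ofReal_ofNat, ← ENNReal.ofReal_natCast,
        ← ENNReal.ofReal_pow (by positivity), ← ENNReal.ofReal_pow (by positivity),
        ← ENNReal.ofReal_mul (by positivity), ← ENNReal.ofReal_mul (by positivity)]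
      refine ENNReal.ofReal_le_ofReal ?_
      rw [Complex.norm_real, Real.norm_eq_abs, sq_abs]
      linarith)
  rw [tsum_sq] at h3
  have h4 : ∀ x y z, ‖η [.inl (.inl x), .inl (.inl y), .inl (.inl z)]‖ ≤ ‖η‖ / 2 := by
    intro x y z
    have h5 := (le_nrm _ _ [.inl (.inl x), .inl (.inl y), .inl (.inl z)]).trans h3
    have h6 : (ρ : ℝ) ^ 3 * ‖η [.inl (.inl x), .inl (.inl y), .inl (.inl z)]‖ ^ 2 ≤ 2 * ‖η‖ ^ 2 := by
      have := ENNReal.toReal_mono (by finiteness) h5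
      simpa [wq, pow_succ, mul_assoc] using this
    have h7 : (2 : ℝ) ^ 3 ≤ ρ ^ 3 := by gcongr; exact_mod_cast h2
    refine abs_le_of_sq_le_sq' ?_ (by positivity) |>.2
    nlinarith [sq_nonneg ‖η [.inl (.inl x), .inl (.inl y), .inl (.inl z)]‖]
  rw [zv, inner_add_left, inner_dl, inner_dl]
  exact (norm_add_le _ _).trans ((add_le_add (h4 _ _ _) (h4 _ _ _)).trans_eq (by ring))

theorem fisher_le {ρ : ℕ} (hρ : Fintype.card F = ρ ^ 2) (h2 : 2 ≤ ρ) {t : ℝ} (ht : 0 < t) :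
    fisher (YY (F := F) √t) (dl []) ≤ ENNReal.ofReal (3 * (ρ : ℝ) ^ 2 *
      min ((1 + 10 * (ρ : ℝ) ^ 6) ^ 2) t⁻¹ + (ρ : ℝ) ^ 6 / (1 + t) -
      if 10528 * (ρ : ℝ) ^ 3 ≤ t then (ρ : ℝ) ^ 6 / (1 + t) ^ 2 else 0) := by
  have h : (√t)⁻¹ * √t = 1 := inv_mul_cancel₀ (by positivity)
  have hs : (√t)⁻¹ ^ 2 = t⁻¹ := by rw [inv_pow, Real.sq_sqrt ht.le]
  refine (iInf₂_le _ (isConj h)).trans (ENNReal.ofReal_le_ofReal ?_)
  rw [Fintype.sum_sum_type, add_sub_assoc]
  refine add_le_add ((sum_le_card_nsmul _ _ (min ((1 + 10 * (ρ : ℝ) ^ 6) ^ 2) t⁻¹) fun i _ =>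
    le_min ?_ ?_).trans_eq (by simp [hρ])) ((sum_le_card_nsmul _ _ (1 / (1 + t) -
      if 10528 * (ρ : ℝ) ^ 3 ≤ t then 1 / (1 + t) ^ 2 else 0) fun j _ => ?_).trans_eq ?_)
  · refine pow_le_pow_left₀ (norm_nonneg _) ((xi_hid h i).trans_eq ?_) 2
    rw [hρ]; push_cast; ring
  · rw [← hs, ← sq_abs (√t)⁻¹]
    exact pow_le_pow_left₀ (norm_nonneg _) (xi_le _) 2
  · obtain ⟨h3, h4⟩ := xi_obs h j
    rw [Real.sq_sqrt ht.le] at h3 h4
    refine le_of_mul_le_mul_left ?_ (show 0 < (1 + t) ^ 2 by positivity)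
    split_ifs with h5
    · have := zv_le hρ h2 h (by rw [hs, inv_mul_le_iff₀ ht, mul_one]; exact h5) j
      rw [h4, show (1 + t) ^ 2 * (1 / (1 + t) - 1 / (1 + t) ^ 2) = t by field_simp; ring]
      nlinarith [norm_nonneg (PP (YY √t) (dl []) (zv j))]
    · exact h3.trans_eq (by field_simp; ring)
  · simp only [card_univ, Fintype.card_prod, hρ, nsmul_eq_mul]
    split_ifs <;> push_cast <;> ring

theorem le_fisher' {t : ℝ} (ht : 0 < t) : ENNReal.ofReal (Fintype.card (NN F) / (3 + t)) ≤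
    fisher (YY (F := F) √t) (dl []) :=
  le_fisher YY_sa (norm_dl _) (by positivity) fun i =>
    (norm_YY i).trans_eq (by rw [Real.sq_sqrt ht.le])

end Vale.Agent.P087
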