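import Vale.Agent.P087.Fock
import Vale.Agent.P087.Base

/-! The field operators are a free semicircular family. -/

namespace Vale.Agent.P087

open scoped InnerProductSpace

variable {I : Type} [DecidableEq I]

open FockAux

namespace FreeAux

lemma DD_act {ι : Type} [DecidableEq ι] {c : ι → I} (hc : Function.Injective c) (i : ι)
    (w : List ι) : DD (c i) ⇑(act (fun i => fs (c i)) w (dl [])) =
      ∑ l ∈ Finset.range w.length, if w[l]? = some i then
        ten ⇑(act (fun i => fs (c i)) (w.take l) (dl []))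
          ⇑(act (fun i => fs (c i)) (w.drop (l + 1)) (dl [])) else 0 := by
  induction w with
  | nil => simp [act_nil, coe_vac, DD_dz]
  | cons j w ih =>
    rw [act_cons, coe_fs, DD_sL, ih, map_sum, List.length_cons, Finset.sum_range_succ']
    congr 1
    · refine Finset.sum_congr rfl fun l _ => ?_
      simp only [List.getElem?_cons_succ, List.take_succ_cons, List.drop_succ_cons, act_cons,
        coe_fs]
      split_ifs
      · rw [sL_ten]
      · rw [map_zero]
    · simp [hc.eq_iff, act_nil, coe_vac]

/-- The moments of the semicircular law. -/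
noncomputable def sc (n : ℕ) : ℂ := if Even n then catalan (n / 2) else 0

lemma sum_even (g : ℕ → ℂ) (hg : ∀ a, g (2 * a + 1) = 0) (p : ℕ) :
    ∑ l ∈ Finset.range (2 * p + 1), g l = ∑ a ∈ Finset.range (p + 1), g (2 * a) := by
  induction p with
  | zero => simp
  | succ p ih =>
    rw [show 2 * (p + 1) + 1 = 2 * p + 1 + 1 + 1 by ring, Finset.sum_range_succ,
      Finset.sum_range_succ, ih, hg, Finset.sum_range_succ _ (p + 1), add_zero]
    rfl

lemma sc_even (p : ℕ) : sc (2 * p) = catalan p := by simp [sc]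

lemma sc_odd (p : ℕ) : sc (2 * p + 1) = 0 := by simp [sc]

lemma sc_succ (n : ℕ) : sc (n + 1) = ∑ l ∈ Finset.range n, sc l * sc (n - (l + 1)) := by
  obtain ⟨p, rfl | rfl⟩ := Nat.even_or_odd' n
  · rw [sc_odd]
    refine (Finset.sum_eq_zero fun l hl => ?_).symm
    rw [Finset.mem_range] at hl
    obtain ⟨a, rfl | rfl⟩ := Nat.even_or_odd' l
    · rw [show 2 * p - (2 * a + 1) = 2 * (p - a - 1) + 1 by omega, sc_odd, mul_zero]
    · rw [sc_odd, zero_mul]
  · rw [sum_even _ (fun a => by rw [sc_odd, zero_mul]), show 2 * p + 1 + 1 = 2 * (p + 1) by ring,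
      sc_even, catalan_succ', Finset.Nat.sum_antidiagonal_eq_sum_range_succ_mk]
    push_cast
    refine Finset.sum_congr rfl fun a ha => ?_
    rw [show 2 * p - 2 * a = 2 * (p - a) by omega, sc_even, sc_even]

lemma sd_unit {μ : List Unit → ℂ} (h : SD μ) (n : ℕ) : μ (List.replicate n ()) = sc n := by
  induction n using Nat.strong_induction_on with
  | _ n ih =>
    rcases n with _ | n
    · simpa [sc] using h.nil
    · rw [List.replicate_succ, h.cons, sc_succ, List.length_replicate]
      refine Finset.sum_congr rfl fun l hl => ?_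
      rw [Finset.mem_range] at hl
      rw [if_pos (by simp [hl]), List.take_replicate, List.drop_replicate, min_eq_left hl.le,
        ih l (by omega), ih _ (by omega)]

variable {κ : Type} (b : I → κ)

open Classical in
/-- The factorization of a vector along the maximal initial segment in the block `o`. -/
def Fac (o : κ) (ζ η α : List I → ℂ) : Prop :=
  ∀ w, η w = α (w.takeWhile fun e => b e = o) * ζ (w.dropWhile fun e => b e = o)

lemma Fac.map {o : κ} {ζ : List I → ℂ} {x : FH I →L[ℂ] FH I}
    (hx : x ∈ Algebra.adjoin ℂ (fs '' {e | b e = o})) :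
    ∀ η α : FH I, Fac b o ζ η α → Fac b o ζ (x η) (x α) := by
  induction hx using Algebra.adjoin_induction with
  | mem x hx =>
    obtain ⟨e, he, rfl⟩ := hx
    intro η α h w
    replace he : b e = o := he
    rw [coe_fs, coe_fs, sL_apply, sL_apply, add_mul, h (e :: w)]
    congr 1
    · rcases w with _ | ⟨a, w⟩
      · simp
      · by_cases ha : a = e
        · subst ha
          simp [he, h w]
        · by_cases ha' : b a = o <;> simp [ha, ha']
    · simp [he]
  | algebraMap r =>
    intro η α h w
    simp only [Algebra.algebraMap_eq_smul_one, smul_apply, one_apply_eq_self,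
      lp.coeFn_smul, Pi.smul_apply, smul_eq_mul, h w, mul_assoc]
  | add x y _ _ hx hy =>
    intro η α h w
    simp only [add_apply, lp.coeFn_add, Pi.add_apply, hx η α h w, hy η α h w, add_mul]
  | mul x y _ _ hx hy => exact fun η α h => hx _ _ (hy _ _ h)

/-- The vector lives on words that begin in the block `o`. -/
def Gd (o : κ) (ζ : List I → ℂ) : Prop := ∀ w, ζ w ≠ 0 → ∃ e, w.head? = some e ∧ b e = o

/-- The vector vanishes on words that begin in the block `o`. -/
def Off (o : κ) (ζ : List I → ℂ) : Prop := ∀ e w, b e = o → ζ (e :: w) = 0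

lemma Off.gd {o : κ} {ζ : FH I} (h : Off b o ζ) {x : FH I →L[ℂ] FH I}
    (hx : x ∈ Algebra.adjoin ℂ (fs '' {e | b e = o})) (h0 : ⟪dl [], x (dl [])⟫_ℂ = 0) :
    Gd b o (x ζ) := by
  have h1 : Fac b o ζ ζ (dl ([] : List I)) := by
    intro w
    rcases w with _ | ⟨a, w⟩
    · simp [coe_dl]
    · by_cases ha : b a = o
      · simp [coe_dl, ha, h a w ha]
      · simp [coe_dl, ha]
  have h2 := Fac.map b hx _ _ h1
  rw [inner_dl] at h0
  intro w hw
  rw [h2 w] at hw
  rcases w with _ | ⟨a, w⟩
  · simp [h0] at hw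
  · by_cases ha : b a = o
    · exact ⟨a, rfl, ha⟩
    · simp [ha, h0] at hw

end FreeAux

open FreeAux

theorem sd_fs {ι : Type} [DecidableEq ι] {c : ι → I} (hc : Function.Injective c) :
    SD (mom (fun i => fs (c i)) (dl [])) := by
  refine ⟨by simp [mom, act_nil, norm_dl], fun i w => ?_, fun w => ?_⟩
  · have h := congrFun (congrFun (DD_act hc i w) []) []
    rw [DD_apply] at h
    simp only [mom, inner_dl, act_cons, coe_fs, sL_apply, List.head?_nil, reduceCtorEq, if_false,
      zero_add]
    rw [← List.nil_append [c i], h, Finset.sum_apply, Finset.sum_apply]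
    refine Finset.sum_congr rfl fun l _ => ?_
    split_ifs <;> rfl
  · rw [mom, mom, inner_act (fun i => fs_sa (c i)) w, inner_conj_symm]

theorem semicirc (e : I) : IsSemicirc (fun x : FH I →L[ℂ] FH I => ⟪dl [], x (dl [])⟫_ℂ) (fs e) := by
  have h : ∀ n, ⟪dl [], (fs e ^ n) (dl [])⟫_ℂ = sc n := fun n => by
    rw [← sd_unit (sd_fs (c := fun _ : Unit => e) (Function.injective_of_subsingleton _)) n, mom,
      act_eq_prod, List.map_replicate, List.prod_replicate]
  exact fun p => ⟨(h _).trans (sc_even p), (h _).trans (sc_odd p)⟩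

theorem isFree {κ : Type} (b : I → κ) {B : κ → Set (FH I →L[ℂ] FH I)}
    (hB : ∀ o, B o ⊆ Algebra.adjoin ℂ (fs '' {e | b e = o})) :
    IsFree (fun x : FH I →L[ℂ] FH I => ⟪dl [], x (dl [])⟫_ℂ) B := by
  have key : ∀ (l : List (κ × (FH I →L[ℂ] FH I))) (p : κ × (FH I →L[ℂ] FH I)),
      (∀ q ∈ p :: l, q.2 ∈ Algebra.adjoin ℂ (B q.1) ∧ ⟪dl [], q.2 (dl [])⟫_ℂ = 0) →
      (p :: l).IsChain (fun p q => p.1 ≠ q.1) →
      Gd b p.1 (((p :: l).map Prod.snd).prod (dl [])) := by
    intro l
    induction l with
    | nil =>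
      intro p h _
      obtain ⟨h1, h2⟩ := h p (by simp)
      simpa using Off.gd b (ζ := dl []) (fun e w _ => by simp [coe_dl])
        (Algebra.adjoin_le (hB _) h1) h2
    | cons q l ih =>
      intro p h hc
      obtain ⟨h1, h2⟩ := h p (by simp)
      rw [List.isChain_cons_cons] at hc
      have h3 := ih q (fun r hr => h r (List.mem_cons_of_mem _ hr)) hc.2
      refine Off.gd b (ζ := ((q :: l).map Prod.snd).prod (dl [])) (fun e w he => ?_)
        (Algebra.adjoin_le (hB _) h1) h2
      by_contra hne
      obtain ⟨e', he', hb⟩ := h3 _ hne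
      obtain rfl : e = e' := by simpa using he'
      exact hc.1 (he.symm.trans hb)
  intro l hl h hc
  obtain ⟨p, l, rfl⟩ := List.exists_cons_of_ne_nil hl
  have := key l p h hc []
  simp only [inner_dl]
  by_contra hne
  simpa using this hne

end Vale.Agent.P087
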