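import Vale.Agent.P087.GueA

/-! Asymptotic freeness of independent Gaussian matrices, in probability. -/

namespace Vale.Agent.P087

open scoped Topology ComplexConjugate
open MeasureTheory Filter MvPolynomial

namespace Gue

variable {ι : Type} [Fintype ι] [DecidableEq ι] {k : ℕ}

/-- Polynomials in the coordinates. -/
abbrev PP (ι : Type) (k : ℕ) := MvPolynomial (ι × Fin k × Fin k) ℂ

/-- The constant `(1 + i) / 2`. -/
noncomputable def cc : ℂ := ⟨1 / 2, 1 / 2⟩

/-- The generic self-adjoint matrices. -/
noncomputable def AA (k : ℕ) (i : ι) : Matrix (Fin k) (Fin k) (PP ι k) :=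
  Matrix.of fun p q => cc • X (i, p, q) + conj cc • X (i, q, p)

/-- Words in the generic matrices. -/
noncomputable def WW (k : ℕ) (w : List ι) : Matrix (Fin k) (Fin k) (PP ι k) := (w.map (AA k)).prod

/-- Normalized traces of words. -/
noncomputable def tt (k : ℕ) (w : List ι) : PP ι k := (k : ℂ)⁻¹ • (WW k w).trace

/-- The derivation dual to a matrix entry. -/
noncomputable def DD (i : ι) (p q : Fin k) : Derivation ℂ (PP ι k) (PP ι k) :=
  cc • pderiv (i, p, q) + conj cc • pderiv (i, q, p)

omit [DecidableEq ι] in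
lemma EE_AA (hk : k ≠ 0) (i : ι) (p q : Fin k) (f : PP ι k) :
    EE k (AA k i p q * f) = (k : ℂ)⁻¹ * EE k (DD i p q f) := by
  simp only [AA, DD, Matrix.of_apply, add_mul, smul_mul_assoc, map_add, map_smul, EE_X_mul hk,
    Derivation.add_apply, Derivation.smul_apply, smul_eq_mul]
  ring

omit [Fintype ι] in
lemma DD_AA (i j : ι) (p q r t : Fin k) :
    DD i p q (AA k j r t) = if j = i ∧ r = q ∧ t = p then 1 else 0 := by
  have h1 : cc * cc + conj cc * conj cc = 0 := by
    apply Complex.ext <;> simp [cc]
  have h2 : cc * conj cc + conj cc * cc = 1 := by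
    apply Complex.ext <;> norm_num [cc]
  have e : DD i p q (AA k j r t) =
      (cc * cc + conj cc * conj cc) • (if j = i ∧ r = p ∧ t = q then 1 else 0) +
      (cc * conj cc + conj cc * cc) • (if j = i ∧ r = q ∧ t = p then 1 else 0) := by
    simp only [AA, DD, Matrix.of_apply, map_add, Derivation.map_smul, Derivation.add_apply,
      Derivation.smul_apply, pderiv_X, Pi.single_apply, Prod.mk.injEq, and_comm (a := t = _)]
    module
  rw [e, h1, h2, zero_smul, one_smul, zero_add]

omit [Fintype ι] [DecidableEq ι] in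
lemma WW_cons (j : ι) (w : List ι) : WW k (j :: w) = AA k j * WW k w := by simp [WW]

omit [Fintype ι] [DecidableEq ι] in
lemma WW_append (u w : List ι) : WW k (u ++ w) = WW k u * WW k w := by simp [WW]

omit [Fintype ι] in
lemma DD_WW (i : ι) (p q : Fin k) (w : List ι) (r s : Fin k) :
    DD i p q (WW k w r s) = ∑ l ∈ Finset.range w.length,
      if w[l]? = some i then WW k (w.take l) r q * WW k (w.drop (l + 1)) p s else 0 := by
  induction w generalizing r with
  | nil =>
    simp only [WW, List.map_nil, List.prod_nil, Matrix.one_apply]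
    split_ifs <;> simp
  | cons j w ih =>
    rw [List.length_cons, Finset.sum_range_succ', WW_cons, Matrix.mul_apply, map_sum]
    simp only [Derivation.leibniz, ih, DD_AA, smul_eq_mul, Finset.sum_add_distrib, Finset.mul_sum,
      List.getElem?_cons_succ, List.take_succ_cons, List.drop_succ_cons, WW_cons, Matrix.mul_apply,
      List.getElem?_cons_zero, List.take_zero, List.drop_zero, Option.some.injEq]
    rw [Finset.sum_comm]
    congr 1
    · refine Finset.sum_congr rfl fun l _ => ?_
      split_ifs <;> simp [Finset.sum_mul, mul_assoc]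
    · by_cases h : j = i <;> by_cases h' : r = q <;> simp [h, h', WW]

/-- The crossing terms. -/
noncomputable def GG (i : ι) (w : List ι) (F : PP ι k) : PP ι k :=
  ∑ p, ∑ q, WW k w q p * DD i p q F

omit [Fintype ι] in
lemma GG_tt (i : ι) (w u : List ι) : GG i w (tt k u) = ∑ l ∈ Finset.range u.length,
    if u[l]? = some i then tt k (u.take l ++ w ++ u.drop (l + 1)) else 0 := by
  simp only [GG, tt, Derivation.map_smul, Matrix.trace, Matrix.diag, map_sum, DD_WW, WW_append,
    Matrix.mul_apply, Finset.mul_sum, Finset.smul_sum, Finset.sum_mul]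
  simp only [Finset.sum_comm (t := Finset.range _)]
  refine Finset.sum_congr rfl fun l _ => ?_
  split_ifs
  · conv_rhs => rw [Finset.sum_comm]
    refine Finset.sum_congr rfl fun p _ => ?_
    rw [Finset.sum_comm]
    refine Finset.sum_congr rfl fun r _ => Finset.sum_congr rfl fun q _ => ?_
    rw [mul_smul_comm, mul_left_comm, mul_assoc]
  · simp

omit [Fintype ι] [DecidableEq ι] in
lemma GG_mul (i : ι) (w : List ι) (F G : PP ι k) :
    GG i w (F * G) = F * GG i w G + G * GG i w F := by
  simp only [GG, Derivation.leibniz, smul_eq_mul, mul_add, Finset.sum_add_distrib, Finset.mul_sum,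
    mul_left_comm]

lemma EE_tt (hk : k ≠ 0) (i : ι) (w : List ι) (F : PP ι k) :
    EE k (tt k (i :: w) * F) = ∑ l ∈ Finset.range w.length,
      (if w[l]? = some i then EE k (tt k (w.take l) * (tt k (w.drop (l + 1)) * F)) else 0) +
      (k : ℂ)⁻¹ * (k : ℂ)⁻¹ * EE k (GG i w F) := by
  simp only [GG, tt, WW_cons, Matrix.trace, Matrix.diag, Matrix.mul_apply, smul_mul_assoc,
    Finset.sum_mul, map_smul, map_sum, mul_assoc, EE_AA hk, Derivation.leibniz, smul_eq_mul,
    map_add, mul_add, Finset.sum_add_distrib, Finset.mul_sum, DD_WW, mul_smul_comm]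
  rw [add_comm]
  congr 1
  simp only [Finset.sum_comm (t := Finset.range _)]
  refine Finset.sum_congr rfl fun l _ => ?_
  split_ifs
  · refine Finset.sum_congr rfl fun p _ => Finset.sum_congr rfl fun q _ => ?_
    rw [mul_comm F, mul_assoc]
  · simp

/-- The size of a list of words. -/
def sz (L : List (List ι)) : ℕ := (L.map fun w => w.length + 1).sum

/-- Expected products of traces. -/
noncomputable def TT (L : List (List ι)) (k : ℕ) : ℂ := EE k (L.map (tt k)).prod

lemma err {μ : List ι → ℂ} {n : ℕ}
    (H : ∀ L, sz L < n → Tendsto (TT L) atTop (𝓝 (L.map μ).prod)) (i : ι) (w : List ι)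
    (L L0 : List (List ι)) (h : sz L0 + sz L + w.length ≤ n) : ∃ c, Tendsto
      (fun k => EE k ((L0.map (tt k)).prod * GG i w (L.map (tt k)).prod)) atTop (𝓝 c) := by
  induction L generalizing L0 with
  | nil => exact ⟨0, by simp [GG]⟩
  | cons u L ih =>
    obtain ⟨c, hc⟩ := ih (u :: L0) (by simp [sz] at h ⊢; omega)
    refine ⟨_, (hc.add (tendsto_finsetSum (Finset.range u.length) fun l hl =>
      (H ((u.take l ++ w ++ u.drop (l + 1)) :: (L0 ++ L)) ?_).const_mul
        (if u[l]? = some i then 1 else 0))).congr fun k => ?_⟩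
    · have := Finset.mem_range.1 hl
      simp [sz] at h ⊢
      omega
    · simp only [TT, List.map_cons, List.prod_cons, List.map_append, List.prod_append, GG_mul,
        GG_tt, mul_add, map_add, Finset.mul_sum, map_sum]
      congr 1
      · congr 1; ring
      · refine Finset.sum_congr rfl fun l _ => ?_
        split_ifs
        · rw [one_mul]; congr 1; ring
        · simp

lemma conv {μ : List ι → ℂ} (h : SD μ) (n : ℕ) :
    ∀ L, sz L < n → Tendsto (TT L) atTop (𝓝 (L.map μ).prod) := by
  induction n with
  | zero => simp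
  | succ n ih =>
    rintro (_ | ⟨_ | ⟨i, w⟩, L⟩) hL
    · have : TT ([] : List (List ι)) = fun _ => 1 := funext fun k => by simp [TT, EE_apply]
      simp [this]
    · rw [List.map_cons, List.prod_cons, h.nil, one_mul]
      refine (ih L (by simp [sz] at hL ⊢; omega)).congr' ?_
      filter_upwards [eventually_ne_atTop 0] with k hk
      have : tt k ([] : List ι) = 1 := by
        rw [tt, WW, List.map_nil, List.prod_nil, Matrix.trace_one, Fintype.card_fin,
          ← mul_one (k : PP ι k), ← nsmul_eq_mul, ← Nat.cast_smul_eq_nsmul ℂ,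
          inv_smul_smul₀ (by simpa using hk)]
      simp [TT, this]
    · obtain ⟨c, hc⟩ := err ih i w L [] (by simp [sz] at hL ⊢; omega)
      have h0 : Tendsto (fun k : ℕ => (k : ℂ)⁻¹) atTop (𝓝 0) := tendsto_inv_atTop_nhds_zero_nat
      have := (tendsto_finsetSum (Finset.range w.length) fun l hl =>
        (ih (w.take l :: w.drop (l + 1) :: L) (by
          have := Finset.mem_range.1 hl
          simp [sz] at hL ⊢
          omega)).const_mul (if w[l]? = some i then 1 else 0)).add ((h0.mul h0).mul hc)
      rw [List.map_cons, List.prod_cons, h.cons, Finset.sum_mul]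
      simp only [zero_mul, add_zero, ite_mul, one_mul, List.map_cons, List.prod_cons, mul_assoc,
        List.map_nil, List.prod_nil] at this ⊢
      refine this.congr' ?_
      filter_upwards [eventually_ne_atTop 0] with k hk
      simp only [TT, List.map_cons, List.prod_cons, EE_tt hk, mul_assoc]

omit [Fintype ι] [DecidableEq ι] in
lemma ev_tt (y : ι × Fin k × Fin k → ℝ) (w : List ι) :
    ev y (tt k w) = (k : ℂ)⁻¹ * (w.map (mat y)).prod.trace := by
  have e : ∀ i, (ev y).mapMatrix (AA k i) = mat y i := fun i => by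
    ext p q
    apply Complex.ext <;> simp [AA, ev, mat, herm, cc] <;> ring
  rw [tt, map_smul, WW, smul_eq_mul, ← funext e, ← Function.comp_def, ← List.map_map,
    ← map_list_prod, AlgHom.mapMatrix_apply, ← AddMonoidHom.map_trace]

omit [Fintype ι] [DecidableEq ι] in
lemma ev_rev (y : ι × Fin k × Fin k → ℝ) (w : List ι) :
    ev y (tt k w.reverse) = conj (ev y (tt k w)) := by
  have e : ∀ i, (mat y i).conjTranspose = mat y i := fun i => by
    ext p q
    apply Complex.ext <;> simp [mat, herm] <;> ring
  rw [ev_tt, ev_tt, map_mul, map_inv₀, map_natCast, starRingEnd_apply, ← Matrix.trace_conjTranspose,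
    Matrix.conjTranspose_list_prod, List.map_map, List.map_reverse]
  simp only [Function.comp_def, e]

end Gue

open Gue in
theorem gue {ι : Type} [Fintype ι] [DecidableEq ι] {μ : List ι → ℂ} (h : SD μ) (w : List ι) {ε : ℝ}
    (hε : 0 < ε) : Tendsto (fun k : ℕ => gam (ι × Fin k × Fin k) k
      {y | ε ≤ ‖(k : ℂ)⁻¹ * (w.map (mat y)).prod.trace - μ w‖}) atTop (𝓝 0) := by
  have c := fun L => conv h (sz L + 1) L (Nat.lt_succ_self _)
  have h1 := (((c [w, w.reverse]).sub ((c [w]).const_mul (μ w.reverse))).sub
    ((c [w.reverse]).const_mul (μ w))).add_const (μ w * μ w.reverse)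
  let P := fun k => (tt k w - C (μ w)) * (tt k w.reverse - C (μ w.reverse))
  have e : ∀ k y, ev y (P k) = ((‖ev y (tt k w) - μ w‖ ^ 2 : ℝ) : ℂ) := fun k y => by
    have : ∀ z, ev y (C z) = z := fun z => by simp [ev]
    simp only [P, map_mul, map_sub, this, ev_rev, h.rev]
    rw [← map_sub, Complex.mul_conj']
    simp
  have h2 : Tendsto (fun k => EE k (P k)) atTop (𝓝 0) := by
    convert h1 using 2 with k
    · have : EE k (1 : PP ι k) = 1 := by simp [EE_apply]
      have e : P k = tt k w * tt k w.reverse - μ w.reverse • tt k w - μ w • tt k w.reverse +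
          (μ w * μ w.reverse) • 1 := by
        simp only [P, smul_eq_C_mul, map_mul]; ring
      simp [e, TT, this]
    · simp only [List.map_cons, List.map_nil, List.prod_cons, List.prod_nil]; ring
  have h3 := ENNReal.tendsto_ofReal (((Complex.continuous_re.tendsto _).comp h2).div_const (ε ^ 2))
  simp only [Complex.zero_re, zero_div, ENNReal.ofReal_zero] at h3
  refine tendsto_of_tendsto_of_tendsto_of_le_of_le tendsto_const_nhds h3 (fun _ => zero_le)
    fun k => ?_
  have hi : Integrable (fun y => ‖ev y (tt k w) - μ w‖ ^ 2) (gam (ι × Fin k × Fin k) k) := by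
    simpa only [e, RCLike.re_to_complex, Complex.ofReal_re] using (ev_int k (P k)).re
  have := mul_meas_ge_le_integral_of_nonneg (ae_of_all _ fun _ => sq_nonneg _) hi (ε ^ 2)
  simp only [sq_le_sq₀ hε.le (norm_nonneg _), ev_tt] at this
  rw [← ofReal_measureReal]
  refine ENNReal.ofReal_le_ofReal ?_
  simp only [Function.comp, EE_apply, e, integral_complex_ofReal, Complex.ofReal_re, ev_tt]
  rw [le_div_iff₀' (by positivity)]
  exact this

end Vale.Agent.P087
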