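import Vale.Agent.P087.Base
import Mathlib.MeasureTheory.Integral.Pi

/-! Gaussian measure and volume; shears preserve the volume. -/

namespace Vale.Agent.P087

open MeasureTheory ProbabilityTheory
open scoped NNReal

variable {σ : Type} [Fintype σ] {k : ℕ}

lemma gam_eq (hk : 0 < k) : gam σ k = volume.withDensity fun y => ENNReal.ofReal
    (√(k / (2 * Real.pi)) ^ Fintype.card σ * Real.exp (-(k * (∑ a, y a ^ 2) / 2))) := by
  have hv : (k : ℝ≥0)⁻¹ ≠ 0 := by simpa using hk.ne'
  have e : ∀ y : σ → ℝ, √(k / (2 * Real.pi)) ^ Fintype.card σ *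
      Real.exp (-(k * (∑ a, y a ^ 2) / 2)) = ∏ a, gaussianPDFReal 0 (k : ℝ≥0)⁻¹ (y a) := fun y => by
    simp only [gaussianPDFReal, Finset.prod_mul_distrib, Finset.prod_const, Finset.card_univ,
      ← Real.exp_sum, ← Real.sqrt_inv, sub_zero, ← Finset.sum_div, Finset.sum_neg_distrib]
    push_cast
    congr 2
    · congr 1; field_simp
    · field_simp
  simp only [e]
  refine Measure.pi_eq fun s hs => ?_
  rw [withDensity_apply _ (MeasurableSet.univ_pi hs), volume_pi, Measure.restrict_pi_pi,
    ← ofReal_integral_eq_lintegral_ofReal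
      (Integrable.fintype_prod fun _ => (integrable_gaussianPDFReal _ _).restrict)
      (ae_of_all _ fun _ => Finset.prod_nonneg fun _ _ => gaussianPDFReal_nonneg _ _ _),
    integral_fintype_prod_eq_prod, ENNReal.ofReal_prod_of_nonneg
      fun _ _ => integral_nonneg fun _ => gaussianPDFReal_nonneg _ _ _]
  simp only [gaussianReal_apply_eq_integral _ hv]

theorem gam_le (hk : 0 < k) (S : Set (σ → ℝ)) :
    gam σ k S ≤ ENNReal.ofReal (√(k / (2 * Real.pi)) ^ Fintype.card σ) * volume S := by
  rw [← smul_eq_mul (ENNReal.ofReal _), ← Measure.smul_apply, ← withDensity_const, gam_eq hk]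
  refine Measure.le_iff'.1 (withDensity_mono (ae_of_all _ fun y => ENNReal.ofReal_le_ofReal ?_)) S
  exact mul_le_of_le_one_right (by positivity)
    (Real.exp_le_one_iff.2 (neg_nonpos.2 (by positivity)))

theorem vol_ball (hk : 0 < k) (ρ : ℝ) : volume {y : σ → ℝ | ∑ a, y a ^ 2 ≤ ρ} ≤
    ENNReal.ofReal (√(2 * Real.pi / k) ^ Fintype.card σ * Real.exp (k * ρ / 2)) := by
  have hm : MeasurableSet {y : σ → ℝ | ∑ a, y a ^ 2 ≤ ρ} :=
    measurableSet_le (by fun_prop) measurable_const
  have h := prob_le_one (μ := gam σ k) (s := {y : σ → ℝ | ∑ a, y a ^ 2 ≤ ρ})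
  rw [gam_eq hk, withDensity_apply _ hm] at h
  have h2 := (setLIntegral_mono' hm (f := fun _ => ENNReal.ofReal
    (√(k / (2 * Real.pi)) ^ Fintype.card σ * Real.exp (-(k * ρ / 2)))) fun y hy => by
      gcongr; exact hy).trans h
  have := Real.pi_pos
  rw [setLIntegral_const, mul_comm, ← ENNReal.le_div_iff_mul_le
    (Or.inl (by simp; positivity)) (by simp), one_div, ← ENNReal.ofReal_inv_of_pos
    (by positivity), mul_inv, ← Real.exp_neg, neg_neg, ← inv_pow, ← Real.sqrt_inv, inv_div] at h2
  exact h2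

theorem vol_shear (p : σ → Prop) {φ : (σ → ℝ) → σ → ℝ} (hφ : Measurable φ)
    (h0 : ∀ y a, p a → φ y a = 0) (h1 : ∀ y y', (∀ a, p a → y a = y' a) → φ y = φ y')
    (S : Set (σ → ℝ)) : volume ((fun y => y + φ y) ⁻¹' S) = volume S := by
  classical
  let e : (σ → ℝ) ≃ᵐ (σ → ℝ) :=
    { toFun := fun y => y + φ y
      invFun := fun y => y - φ y
      left_inv := fun y => by simp [h1 (y + φ y) y fun a h => by simp [h0 _ _ h]]
      right_inv := fun y => by simp [h1 (y - φ y) y fun a h => by simp [h0 _ _ h]]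
      measurable_toFun := measurable_id.add hφ
      measurable_invFun := measurable_id.sub hφ }
  let Ψ := MeasurableEquiv.piEquivPiSubtypeProd (fun _ : σ => ℝ) p
  have hΨ : MeasurePreserving Ψ := volume_preserving_piEquivPiSubtypeProd _ p
  have h := (MeasurePreserving.id volume).skew_product (μc := volume) (μd := volume)
    (g := fun a z => z + (Ψ (φ (Ψ.symm (a, 0)))).2) (by fun_prop)
    (ae_of_all _ fun a => map_add_right_eq_self _ _)
  have : MeasurePreserving e := by
    convert (hΨ.symm.comp h).comp hΨ using 1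
    funext y a
    have : φ (Ψ.symm ((Ψ y).1, 0)) = φ y := h1 _ _ fun a h => by
      simp [Ψ, MeasurableEquiv.piEquivPiSubtypeProd, h]
    simp only [Function.comp, this]
    by_cases h : p a <;> simp [e, Ψ, MeasurableEquiv.piEquivPiSubtypeProd, h, h0]
  exact this.measure_preimage_equiv S

end Vale.Agent.P087
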