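import Vale.Agent.P087.Base
import Mathlib.Algebra.MvPolynomial.PDeriv
import Mathlib.MeasureTheory.Integral.Pi
import Mathlib.MeasureTheory.Integral.IntegralEqImproper

/-! Gaussian integration by parts for polynomials. -/

namespace Vale.Agent.P087.Gue

open scoped NNReal
open MeasureTheory ProbabilityTheory MvPolynomial

lemma mom_int (v : ℝ≥0) (n : ℕ) : Integrable (fun x : ℝ => x ^ n) (gaussianReal 0 v) :=
  integrable_pow_of_mem_interior_integrableExpSet (X := fun x => x) (by simp) n

lemma mom_rec {v : ℝ≥0} (hv : v ≠ 0) (n : ℕ) : ∫ x, x ^ (n + 1) ∂gaussianReal 0 v =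
    v * n * ∫ x, x ^ (n - 1) ∂gaussianReal 0 v := by
  have hv' : (v : ℝ) ≠ 0 := by exact_mod_cast hv
  have hi : ∀ n : ℕ, Integrable fun x : ℝ => gaussianPDFReal 0 v x * x ^ n := fun n => by
    have := mom_int v n
    rw [gaussianReal_of_var_ne_zero _ hv, integrable_withDensity_iff_integrable_smul'
      (measurable_gaussianPDF _ _) (ae_of_all _ fun _ => gaussianPDF_lt_top)] at this
    simpa using this
  have hd : ∀ x : ℝ, HasDerivAt (fun x => gaussianPDFReal 0 v x * x ^ n)
      (n * (gaussianPDFReal 0 v x * x ^ (n - 1)) -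
        (v : ℝ)⁻¹ * (gaussianPDFReal 0 v x * x ^ (n + 1))) x := fun x => by
    have h1 : HasDerivAt (fun x : ℝ => -(x - 0) ^ 2 / (2 * v)) (-((v : ℝ)⁻¹ * x)) x := by
      have := ((((hasDerivAt_id x).sub_const 0).fun_pow 2).fun_neg).div_const (2 * v)
      exact this.congr_deriv (by simp; field_simp)
    have := (h1.exp.const_mul (√(2 * Real.pi * v))⁻¹).fun_mul (hasDerivAt_pow n x)
    exact this.congr_deriv (by simp only [gaussianPDFReal]; ring)
  have := integral_eq_zero_of_hasDerivAt_of_integrable hd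
    (((hi _).const_mul _).sub ((hi _).const_mul _)) (hi n)
  rw [integral_sub ((hi _).const_mul _) ((hi _).const_mul _), integral_const_mul,
    integral_const_mul] at this
  simp only [integral_gaussianReal_eq_integral_smul hv, smul_eq_mul]
  field_simp at this ⊢
  linarith

variable {σ : Type} [Fintype σ]

/-- Evaluation at a real point. -/
noncomputable def ev (y : σ → ℝ) : MvPolynomial σ ℂ →ₐ[ℂ] ℂ := aeval fun a => (y a : ℂ)

lemma ev_mon (y : σ → ℝ) (s : σ →₀ ℕ) (c : ℂ) :
    ev y (monomial s c) = c * ((∏ a, y a ^ s a : ℝ) : ℂ) := by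
  simp [ev, aeval_monomial, Finsupp.prod_fintype]

lemma ev_int (k : ℕ) (p : MvPolynomial σ ℂ) : Integrable (fun y => ev y p) (gam σ k) := by
  induction p using MvPolynomial.induction_on' with
  | monomial s c =>
    simp only [ev_mon]
    exact (Integrable.fintype_prod (f := fun a (x : ℝ) => x ^ s a)
      fun a => mom_int _ _).ofReal.const_mul c
  | add p q hp hq => simp only [map_add]; exact hp.add hq

/-- The Gaussian expectation of a polynomial. -/
noncomputable def EE (k : ℕ) : MvPolynomial σ ℂ →ₗ[ℂ] ℂ where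
  toFun p := ∫ y, ev y p ∂gam σ k
  map_add' p q := by simp only [map_add]; exact integral_add (ev_int k p) (ev_int k q)
  map_smul' c p := by simp only [map_smul]; exact integral_smul _ _

lemma EE_apply (k : ℕ) (p : MvPolynomial σ ℂ) : EE k p = ∫ y, ev y p ∂gam σ k := rfl

lemma EE_mon (k : ℕ) (s : σ →₀ ℕ) (c : ℂ) : EE k (monomial s c) =
    c * ((∏ a, ∫ x, x ^ s a ∂gaussianReal 0 (k : ℝ≥0)⁻¹ : ℝ) : ℂ) := by
  simp only [EE_apply, ev_mon]
  rw [integral_const_mul, integral_complex_ofReal, gam,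
    integral_fintype_prod_eq_prod (fun a (x : ℝ) => x ^ s a)]

lemma EE_X_mul {k : ℕ} (hk : k ≠ 0) (a : σ) (p : MvPolynomial σ ℂ) :
    EE k (X a * p) = (k : ℂ)⁻¹ * EE k (pderiv a p) := by
  classical
  induction p using MvPolynomial.induction_on' with
  | monomial s c =>
    rw [← pow_one (X a), ← monomial_single_add, pderiv_monomial, EE_mon, EE_mon,
      Fintype.prod_eq_mul_prod_compl a, Fintype.prod_eq_mul_prod_compl a]
    have e : ∀ t : σ →₀ ℕ, (∀ b, b ≠ a → t b = s b) →
        ∏ b ∈ {a}ᶜ, ∫ x, x ^ t b ∂gaussianReal 0 (k : ℝ≥0)⁻¹ =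
          ∏ b ∈ {a}ᶜ, ∫ x, x ^ s b ∂gaussianReal 0 (k : ℝ≥0)⁻¹ := fun t ht =>
      Finset.prod_congr rfl fun b hb => by rw [ht b (by simpa using hb)]
    rw [e (_ + _) fun b hb => by simp [hb], e (_ - _) fun b hb => by simp [hb], Finsupp.add_apply,
      Finsupp.single_eq_same, add_comm, mom_rec (by simpa using hk)]
    simp
    ring
  | add p q hp hq => simp only [mul_add, map_add, hp, hq]

end Vale.Agent.P087.Gue
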