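import Vale.Agent.P087.Defs
import Mathlib.Analysis.SpecialFunctions.ImproperIntegrals

/-! The integral estimate; change of the index set. -/

namespace Vale.Agent.P087

open scoped ENNReal Topology
open MeasureTheory Set Filter

namespace Ig

lemma lint {g g' : ℝ → ℝ} {c l : ℝ} (h : ∀ x ∈ Ici c, HasDerivAt g (g' x) x)
    (h0 : ∀ x ∈ Ioi c, 0 ≤ g' x) (hg : Tendsto g atTop (𝓝 l)) :
    ∫⁻ x in Ioi c, ENNReal.ofReal (g' x) = ENNReal.ofReal (l - g c) := by
  rw [← ofReal_integral_eq_lintegral_ofReal (integrableOn_Ioi_deriv_of_nonneg' h h0 hg)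
    (ae_restrict_of_forall_mem measurableSet_Ioi h0), integral_Ioi_of_hasDerivAt_of_nonneg' h h0 hg]

lemma sq_int {m T : ℝ} (hm : 0 ≤ m) (hT : 0 ≤ T) :
    ∫⁻ t in Ioi T, ENNReal.ofReal (m / (1 + t) ^ 2) = ENNReal.ofReal (m / (1 + T)) := by
  rw [lint (g := fun t => -(m * (1 + t)⁻¹)) (l := -(m * 0)) (fun x hx => ?_)
    (fun x _ => by positivity) ((tendsto_inv_atTop_zero.comp
      (tendsto_atTop_add_const_left _ 1 tendsto_id)).const_mul m).neg]
  · simp [div_eq_mul_inv]
  · exact ((((hasDerivAt_id' x).const_add 1).fun_inv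
      (by linarith [mem_Ici.1 hx])).const_mul m).fun_neg.congr_deriv (by ring)

lemma min_int {K : ℝ} (hK : 1 ≤ K) : ∫⁻ t in Ioi (0 : ℝ),
    ENNReal.ofReal (min K t⁻¹ - (1 + t)⁻¹) ≤ ENNReal.ofReal (1 + Real.log K) := by
  have hc : 0 < K⁻¹ := by positivity
  have hl : ∀ x : ℝ, 0 ≤ x → HasDerivAt (fun t => Real.log (1 + t)) (1 + x)⁻¹ x := fun x hx =>
    (((hasDerivAt_id' x).const_add 1).log (by linarith)).congr_deriv (by simp)
  have h1 : ∫⁻ t in Ioc 0 K⁻¹, ENNReal.ofReal (K - (1 + t)⁻¹) =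
      ENNReal.ofReal (1 - Real.log (1 + K⁻¹)) := by
    have c : ContinuousOn (fun t : ℝ => K - (1 + t)⁻¹) (Icc 0 K⁻¹) :=
      continuousOn_const.sub (ContinuousOn.inv₀ (by fun_prop) fun x hx => by linarith [hx.1])
    rw [← ofReal_integral_eq_lintegral_ofReal (c.integrableOn_Icc.mono_set Ioc_subset_Icc_self)
      (ae_restrict_of_forall_mem measurableSet_Ioc fun x hx =>
        sub_nonneg.2 ((inv_le_one_of_one_le₀ (by linarith [hx.1])).trans hK)),
      ← intervalIntegral.integral_of_le hc.le, intervalIntegral.integral_eq_sub_of_hasDerivAt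
        (f := fun t => K * t - Real.log (1 + t)) (fun x hx => ?_)
        (c.intervalIntegrable_of_Icc hc.le)]
    · simp [mul_inv_cancel₀ (by positivity : K ≠ 0)]
    · rw [uIcc_of_le hc.le] at hx
      simpa using ((hasDerivAt_id' x).const_mul K).fun_sub (hl x hx.1)
  have h2 := lint (g := fun t => Real.log t - Real.log (1 + t)) (c := K⁻¹) (l := 0)
    (fun x hx => (Real.hasDerivAt_log (hc.trans_le hx).ne').fun_sub (hl x (hc.le.trans hx)))
    (fun x hx => sub_nonneg.2 (inv_anti₀ (hc.trans hx) (by linarith)))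
    (by simpa [add_comm] using (Real.tendsto_log_comp_add_sub_log 1).neg)
  have h3 : Real.log (1 + K⁻¹) ≤ 1 := (Real.log_le_sub_one_of_pos (by positivity)).trans
    (by linarith [inv_le_one_of_one_le₀ hK])
  have h4 : Real.log K⁻¹ ≤ Real.log (1 + K⁻¹) := Real.log_le_log hc (by linarith)
  rw [← Ioc_union_Ioi_eq_Ioi hc.le, lintegral_union measurableSet_Ioi Ioc_disjoint_Ioi_same]
  refine (add_le_add (lintegral_mono fun t => ?_) (lintegral_mono fun t => ?_)).trans
    (h1 ▸ h2 ▸ ?_ : (∫⁻ t in Ioc 0 K⁻¹, ENNReal.ofReal (K - (1 + t)⁻¹)) +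
      ∫⁻ t in Ioi K⁻¹, ENNReal.ofReal (t⁻¹ - (1 + t)⁻¹) ≤ _)
  · gcongr; exact min_le_left _ _
  · gcongr; exact min_le_right _ _
  · rw [← ENNReal.ofReal_add (by linarith) (by linarith), Real.log_inv]
    exact le_of_eq (by congr 1; ring)

lemma pt {Φ A g1 g2 : ℝ≥0∞} (hA : A ≠ ⊤) (h : Φ + g2 ≤ A + g1) : Φ - A + g2 ≤ A - Φ + g1 := by
  rw [← ENNReal.add_le_add_iff_right hA, add_right_comm, tsub_add_eq_max, max_comm,
    ← tsub_add_eq_max, add_assoc, add_assoc, add_comm g1]
  gcongr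

end Ig

open Ig in
theorem integ {Φ : ℝ → ℝ≥0∞} {a m K T : ℝ} (ha : 0 ≤ a) (hm : 0 ≤ m) (hK : 1 ≤ K) (hT : 0 < T)
    (h1 : ∀ t, 0 < t → Φ t ≤ ENNReal.ofReal (a * min K t⁻¹ + m / (1 + t) -
      if T ≤ t then m / (1 + t) ^ 2 else 0))
    (h2 : ∀ t, 0 < t → ENNReal.ofReal ((a + m) / (3 + t)) ≤ Φ t)
    (h3 : a * (1 + Real.log K) < m / (1 + T)) :
    ∫⁻ t in Set.Ioi (0 : ℝ), (Φ t - ENNReal.ofReal ((a + m) / (1 + t))) <
        ∫⁻ t in Set.Ioi (0 : ℝ), (ENNReal.ofReal ((a + m) / (1 + t)) - Φ t) ∧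
      ∫⁻ t in Set.Ioi (0 : ℝ), (ENNReal.ofReal ((a + m) / (1 + t)) - Φ t) < ⊤ := by
  have hp : ∫⁻ t in Set.Ioi (0 : ℝ), (ENNReal.ofReal ((a + m) / (1 + t)) - Φ t) < ⊤ := by
    refine (setLIntegral_mono' measurableSet_Ioi fun t (ht : 0 < t) => ?_).trans_lt
      ((sq_int (m := 2 * (a + m)) (by positivity) le_rfl).trans_lt ENNReal.ofReal_lt_top)
    refine (tsub_le_tsub_left (h2 t ht) _).trans ?_
    rw [← ENNReal.ofReal_sub _ (by positivity)]
    refine ENNReal.ofReal_le_ofReal ?_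
    rw [div_sub_div _ _ (by positivity) (by positivity), sq]
    exact div_le_div₀ (by positivity) (le_of_eq (by ring)) (by positivity) (by nlinarith)
  refine ⟨?_, hp⟩
  have k := setLIntegral_mono' (μ := volume) measurableSet_Ioi fun t (ht : 0 < t) =>
    pt (Φ := Φ t) (A := ENNReal.ofReal ((a + m) / (1 + t)))
      (g1 := ENNReal.ofReal a * ENNReal.ofReal (min K t⁻¹ - (1 + t)⁻¹))
      (g2 := ENNReal.ofReal (if T ≤ t then m / (1 + t) ^ 2 else 0)) ENNReal.ofReal_ne_top (by
      have e1 : (1 + t)⁻¹ ≤ min K t⁻¹ := le_min ((inv_le_one_of_one_le₀ (by linarith)).trans hK)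
        (inv_anti₀ ht (by linarith))
      have e2 : 0 ≤ (if T ≤ t then m / (1 + t) ^ 2 else 0) := by positivity
      have e3 : (if T ≤ t then m / (1 + t) ^ 2 else 0) ≤ m / (1 + t) := by
        split_ifs
        · exact div_le_div_of_nonneg_left hm (by positivity) (by nlinarith)
        · positivity
      have e4 : 0 ≤ a * min K t⁻¹ := by positivity
      refine (add_le_add_left (h1 t ht) _).trans (le_of_eq ?_)
      rw [← ENNReal.ofReal_add (by linarith) e2, ← ENNReal.ofReal_mul ha,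
        ← ENNReal.ofReal_add (by positivity) (mul_nonneg ha (sub_nonneg.2 e1))]
      congr 1
      ring)
  rw [lintegral_add_right _ ((Measurable.ite measurableSet_Ici (by fun_prop)
    measurable_const).ennreal_ofReal), lintegral_add_right _ (by fun_prop),
    lintegral_const_mul _ (by fun_prop)] at k
  have k2 : ENNReal.ofReal (m / (1 + T)) ≤
      ∫⁻ t in Ioi 0, ENNReal.ofReal (if T ≤ t then m / (1 + t) ^ 2 else 0) := by
    rw [← sq_int hm hT.le]
    refine le_trans (setLIntegral_mono' measurableSet_Ioi fun t ht => ?_)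
      (lintegral_mono_set (Ioi_subset_Ioi hT.le))
    rw [if_pos (le_of_lt ht)]
  have hl := Real.log_nonneg hK
  refine lt_of_add_lt_add_right (k.trans_lt (ENNReal.add_lt_add_left hp.ne
    ((mul_le_mul_right (min_int hK) _).trans_lt (lt_of_lt_of_le ?_ k2))))
  rw [← ENNReal.ofReal_mul ha]
  exact (ENNReal.ofReal_lt_ofReal_iff_of_nonneg (by positivity)).2 h3

namespace Ig

variable {ι κ : Type} [Fintype ι] [DecidableEq ι] [Fintype κ] [DecidableEq κ] {H : Type}
  [NormedAddCommGroup H] [InnerProductSpace ℂ H] (e : κ ≃ ι)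

omit [DecidableEq ι] [DecidableEq κ] in
lemma chi_comp (μ : List ι → ℂ) : chi (fun w => μ (w.map e)) = chi μ := by
  have : ∀ R m k ε, volume (Gam (fun w => μ (w.map e)) R m k ε) = volume (Gam μ R m k ε) := by
    intro R m k ε
    rw [← (volume_preserving_arrowCongr' (e.prodCongr (Equiv.refl (Fin k × Fin k)))
      (MeasurableEquiv.refl ℝ) (MeasurePreserving.id _)).measure_preimage_equiv]
    congr 1
    ext y
    have : ∀ x a, MeasurableEquiv.arrowCongr' (e.prodCongr (Equiv.refl (Fin k × Fin k)))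
        (MeasurableEquiv.refl ℝ) y (e x, a) = y (x, a) := fun x a =>
      congrArg y (Prod.ext (e.symm_apply_apply x) rfl)
    simp only [Gam, mem_preimage, mem_ofPred_eq, e.surjective.forall,
      e.surjective.list_map.forall, List.length_map, List.map_map, Function.comp_def, this]
  simp only [chi, chiR, this, Fintype.card_congr e]

omit [Fintype ι] [DecidableEq ι] [Fintype κ] [DecidableEq κ] in
lemma act_comp (Y : ι → H →L[ℂ] H) (w : List κ) (ξ : H) :
    act (fun j => Y (e j)) w ξ = act Y (w.map e) ξ := by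
  simp only [act, List.foldr_map]

lemma fisher_le (Y : ι → H →L[ℂ] H) (Ω : H) : fisher (fun j => Y (e j)) Ω ≤ fisher Y Ω := by
  refine le_iInf₂ fun ξ h => iInf₂_le_of_le (fun j => ξ (e j)) (fun j => ⟨?_, fun w => ?_⟩)
    (by rw [e.sum_comp fun j => ‖ξ j‖ ^ 2])
  · rw [L2, show (range fun j => Y (e j)) = range Y from e.surjective.range_comp Y]
    exact (h _).1
  · have : ∀ o : Option κ, o.map e = some (e j) ↔ o = some j := fun o =>
      (Option.map_injective e.injective).eq_iff (b := some j)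
    simp only [act_comp, (h _).2, mom, List.length_map, List.getElem?_map, List.map_take,
      List.map_drop, this]

lemma fisher_comp (Y : ι → H →L[ℂ] H) (Ω : H) : fisher (fun j => Y (e j)) Ω = fisher Y Ω :=
  (fisher_le e Y Ω).antisymm (by simpa using fisher_le e.symm (fun j => Y (e j)) Ω)

lemma free_comp {α β A : Type} [Ring A] [Algebra ℂ A] {τ : A → ℂ} {B : β → Set A} (h : IsFree τ B)
    {f : α → β} (hf : Function.Injective f) : IsFree τ fun a => B (f a) := by
  intro l h0 h1 h2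
  have := h (l.map (Prod.map f id)) (by simpa) (List.forall_mem_map.2 h1)
    (by simpa [List.isChain_map, hf.eq_iff] using h2)
  simpa [Function.comp_def] using this

end Ig

open Ig in
theorem counter_of {ι : Type} [Fintype ι] [DecidableEq ι] {H : Type} [NormedAddCommGroup H]
    [InnerProductSpace ℂ H] [CompleteSpace H] {M : VonNeumannAlgebra H} {Ω : H}
    {X S : ι → H →L[ℂ] H} (h : Setup M Ω X S) (h1 : ⊥ < chi (mom X Ω))
    (h2 : chi (mom X Ω) < chiStar X S Ω) (h3 : chiStar X S Ω < ⊤) :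
    Counter (Fintype.card ι) H := by
  let e := (Fintype.equivFin ι).symm
  have e1 : chi (mom (fun j => X (e j)) Ω) = chi (mom X Ω) := by
    rw [← chi_comp e]
    congr 1
    funext w
    rw [mom, mom, act_comp]
  have e2 : chiStar (fun j => X (e j)) (fun j => S (e j)) Ω = chiStar X S Ω := by
    simp only [chiStar, Fintype.card_fin,
      fun t : ℝ => fisher_comp e (fun j => X j + (√t : ℂ) • S j) Ω]
  refine ⟨M, Ω, fun j => X (e j), fun j => S (e j), ⟨h.unit, h.trace, h.faithful,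
    fun _ => h.mem _, fun _ => h.sa _, fun _ => h.semi _, ?_⟩, by rwa [e1], by rwa [e1, e2],
    by rwa [e2]⟩
  convert free_comp h.free (Option.map_injective e.injective) using 2 with o
  rcases o with _ | o
  · exact e.surjective.range_comp X
  · rfl

end Vale.Agent.P087
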