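import Vale.Agent.P087.Base
import Mathlib.MeasureTheory.Covering.BesicovitchVectorSpace
import Mathlib.Probability.Moments.SubGaussian
import Mathlib.MeasureTheory.Integral.Pi
import Mathlib.LinearAlgebra.Complex.FiniteDimensional

/-! The operator norm of a Gaussian matrix. -/

namespace Vale.Agent.P087

open scoped Topology InnerProductSpace NNReal ComplexConjugate
open MeasureTheory Filter ProbabilityTheory

lemma opLe_iff {k : ℕ} {A : Matrix (Fin k) (Fin k) ℂ} {R : ℝ} (hR : 0 ≤ R) :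
    OpLe A R ↔ ‖Matrix.toEuclideanCLM (𝕜 := ℂ) A‖ ≤ R := by
  rw [ContinuousLinearMap.opNorm_le_iff hR]
  have e : ∀ v : EuclideanSpace ℂ (Fin k), ‖Matrix.toEuclideanCLM (𝕜 := ℂ) A v‖ ≤ R * ‖v‖ ↔
      ∑ p, ‖A.mulVec v.ofLp p‖ ^ 2 ≤ R ^ 2 * ∑ p, ‖v.ofLp p‖ ^ 2 := fun v => by
    rw [← sq_le_sq₀ (by positivity) (by positivity), mul_pow, EuclideanSpace.norm_sq_eq,
      EuclideanSpace.norm_sq_eq, Matrix.ofLp_toEuclideanCLM]
  exact ⟨fun h v => (e v).2 (h _), fun h v => (e (WithLp.toLp 2 v)).1 (h _)⟩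

namespace NB

lemma exists_net (E : Type) [NormedAddCommGroup E] [NormedSpace ℝ E] [FiniteDimensional ℝ E] :
    ∃ s : Finset E, s.card ≤ 5 ^ Module.finrank ℝ E ∧ (∀ c ∈ s, ‖c‖ ≤ 2) ∧
      ∀ x, ‖x‖ ≤ 2 → ∃ c ∈ s, ‖x - c‖ ≤ 1 := by
  classical
  obtain ⟨s, h1, h2, h3⟩ : ∃ s : Finset E, s.card = Besicovitch.multiplicity E ∧
      (∀ c ∈ s, ‖c‖ ≤ 2) ∧ ∀ c ∈ s, ∀ d ∈ s, c ≠ d → 1 ≤ ‖c - d‖ :=
    Nat.sSup_mem (s := {N | ∃ s : Finset E, s.card = N ∧ (∀ c ∈ s, ‖c‖ ≤ 2) ∧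
      ∀ c ∈ s, ∀ d ∈ s, c ≠ d → 1 ≤ ‖c - d‖}) ⟨0, ∅, by simp⟩ ⟨_, by
      rintro _ ⟨s, rfl, h⟩
      exact Besicovitch.card_le_of_separated s h.1 h.2⟩
  refine ⟨s, h1 ▸ Besicovitch.multiplicity_le, h2, fun x hx => ?_⟩
  by_contra! hc
  have hs : x ∉ s := fun h => by linarith [hc x h, norm_zero (E := E) ▸ sub_self x ▸ hc x h]
  have := Besicovitch.card_le_multiplicity (s := insert x s) (by simpa [hx] using h2) (by
    simp only [Finset.forall_mem_insert]
    exact ⟨⟨by simp, fun d hd _ => (hc d hd).le⟩,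
      fun c h => ⟨fun _ => norm_sub_rev x c ▸ (hc c h).le, h3 c h⟩⟩)
  rw [Finset.card_insert_of_notMem hs] at this
  omega

lemma norm_le_of_net {E : Type} [NormedAddCommGroup E] [InnerProductSpace ℂ E] {s : Finset E}
    (hs : ∀ x, ‖x‖ ≤ 2 → ∃ c ∈ s, ‖x - c‖ ≤ 1) {T : E →L[ℂ] E} {M : ℝ} (hM : 0 ≤ M)
    (h : ∀ u ∈ s, ∀ x ∈ s, (⟪u, T x⟫_ℂ).re ≤ M) : ‖T‖ ≤ M := by
  have h1 : ∀ x ∈ s, ‖T x‖ ≤ M := fun x hx => by
    rcases (norm_nonneg (T x)).eq_or_lt with h0 | h0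
    · rwa [← h0]
    obtain ⟨c, hc, e⟩ := hs (((2 / ‖T x‖ : ℝ) : ℂ) • T x) (by
      rw [norm_smul, Complex.norm_real, Real.norm_of_nonneg (by positivity),
        div_mul_cancel₀ _ h0.ne'])
    have h2 := ((Complex.re_le_norm _).trans (norm_inner_le_norm (𝕜 := ℂ) _ (T x))).trans
      (mul_le_of_le_one_left h0.le e)
    rw [inner_sub_left, inner_smul_left, Complex.conj_ofReal, Complex.sub_re, Complex.re_ofReal_mul,
      ← RCLike.re_to_complex, inner_self_eq_norm_sq, sq, ← mul_assoc,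
      div_mul_cancel₀ _ h0.ne'] at h2
    linarith [h c hc x hx]
  have : ‖T‖ ≤ (M + ‖T‖) / 2 := T.opNorm_le_of_unit_norm (by positivity) fun x hx => by
    obtain ⟨c, hc, e⟩ := hs ((2 : ℂ) • x) (by simp [norm_smul, hx])
    have h2 := (T.le_opNorm _).trans (mul_le_of_le_one_right (norm_nonneg _) e)
    have h3 := norm_sub_norm_le (T ((2 : ℂ) • x)) (T c)
    rw [← map_sub, map_smul, norm_smul, Complex.norm_ofNat] at h3
    linarith [h1 c hc]
  linarith

lemma chernoff {σ : Type} [Fintype σ] {k : ℕ} {c : σ → ℝ} (hc : ∑ a, c a ^ 2 ≤ 32) :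
    (gam σ k).real {y | 320 ≤ ∑ a, c a * y a} ≤ Real.exp (-1600) ^ k := by
  have : HasSubgaussianMGF (fun y : σ → ℝ => ∑ a, c a * y a) (32 * (k : ℝ≥0)⁻¹) (gam σ k) := by
    constructor <;> intro t <;>
      simp only [mgf, Finset.mul_sum, Real.exp_sum, ← mul_assoc, gam]
    · exact Integrable.fintype_prod (f := fun a (x : ℝ) => Real.exp (t * c a * x))
        fun a => integrable_exp_mul_gaussianReal _
    · rw [integral_fintype_prod_eq_prod (fun a (x : ℝ) => Real.exp (t * c a * x))]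
      have e := fun a => congrFun (mgf_fun_id_gaussianReal (μ := 0) (v := (k : ℝ≥0)⁻¹)) (t * c a)
      simp only [mgf] at e
      simp only [e, ← Real.exp_sum, zero_mul, zero_add, mul_pow, mul_comm (t ^ 2), ← mul_assoc,
        ← Finset.sum_div, ← Finset.sum_mul, ← Finset.mul_sum]
      push_cast
      rw [mul_comm 32]
      gcongr
  refine (this.measure_ge_le (by norm_num)).trans (le_of_eq ?_)
  rw [← Real.exp_nat_mul]
  congr 1
  rcases eq_or_ne k 0 with rfl | hk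
  · simp
  · push_cast; field_simp; norm_num

lemma lin {ι : Type} [Fintype ι] (j : ι) {k : ℕ} {u x : EuclideanSpace ℂ (Fin k)} (hu : ‖u‖ ≤ 2)
    (hx : ‖x‖ ≤ 2) : ∃ c : ι × Fin k × Fin k → ℝ, ∑ a, c a ^ 2 ≤ 32 ∧ ∀ y,
      (⟪u, Matrix.toEuclideanCLM (𝕜 := ℂ) (mat y j) x⟫_ℂ).re = ∑ a, c a * y a := by
  classical
  let z := fun p q => conj (u p) * x q
  refine ⟨fun a => if a.1 = j then ((z a.2.1 a.2.2).re - (z a.2.1 a.2.2).im) / 2 +
    ((z a.2.2 a.2.1).re + (z a.2.2 a.2.1).im) / 2 else 0, ?_, fun y => ?_⟩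
  · have hz : ∑ p, ∑ q, ‖z p q‖ ^ 2 ≤ 16 := by
      simp only [z, norm_mul, mul_pow, Complex.norm_conj, ← Finset.mul_sum, ← Finset.sum_mul,
        ← EuclideanSpace.norm_sq_eq]
      calc _ ≤ (2 : ℝ) ^ 2 * 2 ^ 2 := by gcongr
        _ = _ := by norm_num
    simp only [Fintype.sum_prod_type, ite_pow, Finset.sum_ite_irrel, ne_eq, OfNat.ofNat_ne_zero,
      not_false_eq_true, zero_pow, Finset.sum_const_zero, Finset.sum_ite_eq', Finset.mem_univ,
      if_true]
    calc _ ≤ ∑ p, ∑ q, (‖z p q‖ ^ 2 + ‖z q p‖ ^ 2) := by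
          gcongr with p _ q
          simp only [Complex.sq_norm, Complex.normSq_apply]
          nlinarith [sq_nonneg ((z p q).re + (z p q).im), sq_nonneg ((z q p).re - (z q p).im),
            sq_nonneg ((z p q).re - (z p q).im - (z q p).re - (z q p).im)]
      _ ≤ 32 := by
          simp only [Finset.sum_add_distrib]
          rw [Finset.sum_comm (f := fun p q => ‖z q p‖ ^ 2)]
          linarith
  · simp only [Fintype.sum_prod_type, ite_mul, Finset.sum_ite_irrel, zero_mul,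
      Finset.sum_const_zero, Finset.sum_ite_eq', Finset.mem_univ, if_true, add_mul,
      Finset.sum_add_distrib]
    rw [Finset.sum_comm (f := fun p q => ((z q p).re + _) / 2 * _)]
    simp only [← Finset.sum_add_distrib, PiLp.inner_apply, Matrix.ofLp_toEuclideanCLM,
      Matrix.mulVec, dotProduct, RCLike.inner_apply, Finset.sum_mul, Complex.re_sum]
    refine Finset.sum_congr rfl fun p _ => Finset.sum_congr rfl fun q _ => ?_
    simp [z, mat, herm]
    ring

end NB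

theorem normb : ∃ R : ℝ, 0 < R ∧ ∀ {ι : Type} [Fintype ι] (j : ι),
    Tendsto (fun k : ℕ => gam (ι × Fin k × Fin k) k {y | ¬OpLe (mat y j) R}) atTop (𝓝 0) := by
  refine ⟨320, by norm_num, fun {ι} _ j => ?_⟩
  have h := ENNReal.tendsto_ofReal (tendsto_pow_atTop_nhds_zero_of_lt_one
    (r := 625 * Real.exp (-1600)) (by positivity) (by
      rw [Real.exp_neg, mul_inv_lt_iff₀ (Real.exp_pos _)]
      linarith [Real.add_one_le_exp 1600]))
  rw [ENNReal.ofReal_zero] at h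
  refine tendsto_of_tendsto_of_tendsto_of_le_of_le tendsto_const_nhds h (fun _ => zero_le)
    fun k => ?_
  obtain ⟨s, h1, h2, h3⟩ := NB.exists_net (EuclideanSpace ℂ (Fin k))
  rw [finrank_real_of_complex, finrank_euclideanSpace_fin, pow_mul] at h1
  rw [← ofReal_measureReal]
  refine ENNReal.ofReal_le_ofReal ?_
  calc _ ≤ (gam _ k).real (⋃ v ∈ s ×ˢ s,
        {y | 320 ≤ (⟪v.1, Matrix.toEuclideanCLM (𝕜 := ℂ) (mat y j) v.2⟫_ℂ).re}) := by
        refine measureReal_mono (fun y hy => ?_) (measure_ne_top _ _)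
        by_contra hc
        simp only [Set.mem_iUnion, not_exists, Set.mem_ofPred_eq, not_le, Finset.mem_product] at hc
        exact hy ((opLe_iff (by norm_num)).2 (NB.norm_le_of_net h3 (by norm_num)
          fun u hu x hx => (hc (u, x) ⟨hu, hx⟩).le))
    _ ≤ ∑ v ∈ s ×ˢ s, Real.exp (-1600) ^ k := by
        refine (measureReal_biUnion_finset_le _ _).trans (Finset.sum_le_sum fun v hv => ?_)
        obtain ⟨c, hc, e⟩ := NB.lin j (h2 _ (Finset.mem_product.1 hv).1)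
          (h2 _ (Finset.mem_product.1 hv).2)
        simp only [e]
        exact NB.chernoff hc
    _ ≤ _ := by
        rw [Finset.sum_const, Finset.card_product, nsmul_eq_mul, mul_pow,
          show (625 : ℝ) = 5 ^ 2 * 5 ^ 2 by norm_num, mul_pow, Nat.cast_mul]
        gcongr <;> exact_mod_cast h1

end Vale.Agent.P087
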