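import Vale.Agent.P087.GUE
import Vale.Agent.P087.NormB
import Vale.Agent.P087.GVol
import Mathlib.Data.Set.Finite.List

/-! The microstates free entropy of the model. -/

namespace Vale.Agent.P087

open MeasureTheory Filter
open scoped Topology InnerProductSpace

namespace Vl

/-- Events of asymptotically full Gaussian measure. -/
def FF (ι : Type) [Fintype ι] : Filter (Σ k : ℕ, ι × Fin k × Fin k → ℝ) where
  sets := {S | Tendsto (fun k => gam (ι × Fin k × Fin k) k
    {y | (⟨k, y⟩ : Σ k : ℕ, ι × Fin k × Fin k → ℝ) ∉ S}) atTop (𝓝 0)}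
  univ_sets := by simp
  sets_of_superset hS h := tendsto_of_tendsto_of_tendsto_of_le_of_le tendsto_const_nhds hS
    (fun _ => zero_le) fun k => measure_mono fun y hy hy' => hy (h hy')
  inter_sets hS hT := by
    have := Tendsto.add hS hT
    rw [add_zero] at this
    exact tendsto_of_tendsto_of_tendsto_of_le_of_le tendsto_const_nhds this (fun _ => zero_le)
      fun k => le_trans (measure_mono fun y hy => not_and_or.1 hy) (measure_union_le _ _)

lemma ev_FF {ι : Type} [Fintype ι] {p : (Σ k : ℕ, ι × Fin k × Fin k → ℝ) → Prop} :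
    (∀ᶠ z in FF ι, p z) ↔ Tendsto (fun k => gam _ k {y | ¬p ⟨k, y⟩}) atTop (𝓝 0) := Iff.rfl

variable {F : Type} {A : Type} [Ring A]

lemma expand (w : List (NN F)) : ∃ L : List (List (NN F)), ∀ (A : Type) [Ring A] (s : NN F → A),
    (w.map (XX s)).prod = (L.map fun u => (u.map s).prod).sum := by
  induction w with
  | nil => exact ⟨[[]], by simp⟩
  | cons i w ih =>
    obtain ⟨L, hL⟩ := ih
    rcases i with h | j
    · exact ⟨L.map (.inl h :: ·), fun A _ s => by
        simp [hL, XX, Function.comp_def, List.sum_map_mul_left]⟩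
    · exact ⟨L.map (.inr j :: ·) ++ (L.map (.inl (0, j.1) :: .inl (1, j.2.1) :: .inl (2, j.2.2) :: ·)
        ++ L.map (.inl (2, j.2.2) :: .inl (1, j.2.1) :: .inl (0, j.1) :: ·)), fun A _ s => by
        simp [hL, XX, ZZ, Function.comp_def, List.sum_map_mul_left, add_mul, mul_assoc]⟩

lemma sq_bound {B : Type} [Ring B] (τ : A →+ ℝ) (τ' : B →+ ℝ) {a : NN F → A} {b : NN F → B}
    {ε : ℝ} (h : ∀ w : List (NN F), 1 ≤ w.length → w.length ≤ 6 →
      |τ (w.map (XX a)).prod - τ' (w.map (XX b)).prod| < ε) (i : NN F) :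
    τ (a i * a i) ≤ τ' (b i * b i) + 9 * ε := by
  have h0 := (abs_nonneg _).trans_lt (h [i] (by simp) (by simp))
  rcases i with i | j
  · have := abs_lt.1 (h [.inl i, .inl i] (by simp) (by simp))
    simp only [List.map_cons, List.map_nil, List.prod_cons, List.prod_nil, XX, mul_one] at this
    linarith
  let u : Fin 3 → List (NN F) := ![[.inr j], [.inl (0, j.1), .inl (1, j.2.1), .inl (2, j.2.2)],
    [.inl (2, j.2.2), .inl (1, j.2.1), .inl (0, j.1)]]
  have e : ∀ (A : Type) [Ring A] (s : NN F → A), s (.inr j) =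
      ((u 0).map (XX s)).prod - ((u 1).map (XX s)).prod - ((u 2).map (XX s)).prod := by
    intro A _ s
    simp [u, XX, ZZ, mul_assoc, sub_sub]
  have k : ∀ p q, |τ (((u p).map (XX a)).prod * ((u q).map (XX a)).prod) -
      τ' (((u p).map (XX b)).prod * ((u q).map (XX b)).prod)| < ε := fun p q => by
    simpa only [List.map_append, List.prod_append] using h (u p ++ u q)
      (by fin_cases p <;> simp [u]) (by fin_cases p <;> fin_cases q <;> simp [u])
  simp only [abs_lt] at k
  rw [e A a, e B b]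
  simp only [mul_sub, sub_mul, map_sub]
  linarith [k 0 0, k 0 1, k 0 2, k 1 0, k 1 1, k 1 2, k 2 0, k 2 1, k 2 2]

variable {k : ℕ}

lemma mat_sa {ι : Type} (y : ι × Fin k × Fin k → ℝ) (i : ι) :
    (mat y i).conjTranspose = mat y i := by
  ext p q
  apply Complex.ext <;> simp [mat, herm] <;> ring

lemma sum_sq {ι : Type} [Fintype ι] (y : ι × Fin k × Fin k → ℝ) :
    ∑ a, y a ^ 2 = ∑ i, (mat y i * mat y i).trace.re := by
  simp only [Fintype.sum_prod_type, Matrix.trace, Matrix.diag, Matrix.mul_apply, Complex.re_sum]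
  refine Finset.sum_congr rfl fun i _ => ?_
  have : ∀ p q, (mat y i p q * mat y i q p).re = y (i, p, q) ^ 2 / 2 + y (i, q, p) ^ 2 / 2 :=
    fun p q => by simp [mat, herm]; ring
  simp only [this, Finset.sum_add_distrib]
  rw [Finset.sum_comm (f := fun p q => y (i, q, p) ^ 2 / 2)]
  simp only [← Finset.sum_add_distrib, add_halves]

lemma shear [Fintype F] (k : ℕ) : ∃ T : (NN F × Fin k × Fin k → ℝ) → NN F × Fin k × Fin k → ℝ,
    (∀ y, mat (T y) = XX (mat y)) ∧ ∀ S, volume (T ⁻¹' S) = volume S := by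
  let φ : (NN F × Fin k × Fin k → ℝ) → NN F × Fin k × Fin k → ℝ := fun y a =>
    a.1.elim (fun _ => 0) fun j => (ZZ (mat y) j a.2.1 a.2.2).re + (ZZ (mat y) j a.2.1 a.2.2).im
  refine ⟨_, fun y => ?_, vol_shear (fun a => a.1.isLeft) (φ := φ) ?_ ?_ fun y y' h => ?_⟩
  · funext i
    rcases i with i | j
    · simp [XX, mat, φ]
    · have e : (ZZ (mat y) j).conjTranspose = ZZ (mat y) j := by
        simp [ZZ, mat_sa, mul_assoc, add_comm]
      ext p q
      have := congrFun (congrFun e p) q
      rw [Matrix.conjTranspose_apply, Complex.ext_iff] at this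
      simp only [Complex.star_def, Complex.conj_re, Complex.conj_im] at this
      rw [XX, Matrix.add_apply]
      apply Complex.ext <;> simp only [mat, herm, φ, Matrix.of_apply, Pi.add_apply, Sum.elim_inr,
        Complex.add_re, Complex.add_im] at this ⊢ <;> linarith
  · have c : ∀ i, Continuous fun y : NN F × Fin k × Fin k → ℝ => mat y i := fun i =>
      continuous_matrix fun p q => by
        simp only [mat, herm, Matrix.of_apply, Complex.mk_eq_add_mul_I]; fun_prop
    refine Continuous.measurable (continuous_pi ?_)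
    rintro ⟨i | j, p, q⟩
    · exact continuous_const
    · have : Continuous fun y : NN F × Fin k × Fin k → ℝ => ZZ (mat y) j p q :=
        Continuous.matrix_elem (by unfold ZZ; fun_prop) p q
      simp only [φ, Sum.elim_inr]
      fun_prop
  · rintro y ⟨i | j, a⟩ h
    · rfl
    · simp at h
  · have : ∀ i, mat y (.inl i) = mat y' (.inl i) := fun i =>
      congrArg herm (funext fun a => h _ rfl)
    simp only [φ, ZZ, this]

lemma opLe_XX {a : NN F → Matrix (Fin k) (Fin k) ℂ} {R : ℝ} (hR : 0 < R) (h : ∀ i, OpLe (a i) R)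
    (i : NN F) : OpLe (XX a i) (R + 2 * R ^ 3) := by
  simp only [opLe_iff hR.le] at h
  rw [opLe_iff (by positivity)]
  rcases i with i | j
  · exact (h _).trans (le_add_of_nonneg_right (by positivity))
  · simp only [XX, ZZ, map_add, map_mul]
    grw [norm_add_le, norm_add_le, norm_mul_le, norm_mul_le, norm_mul_le, norm_mul_le, h, h, h, h]
    exact le_of_eq (by ring)

lemma key (n : ℕ) (hk : 0 < k) (c : ℝ) : ((((k : ℝ) ^ 2)⁻¹ : ℝ) : EReal) * ENNReal.log
    (ENNReal.ofReal (√(2 * Real.pi / k) ^ (n * (k * k)) * Real.exp c)) +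
      ((n / 2 * Real.log k : ℝ) : EReal) =
    ((n / 2 * Real.log (2 * Real.pi) + c / k ^ 2 : ℝ) : EReal) := by
  have := Real.pi_pos
  rw [ENNReal.log_ofReal_of_pos (by positivity), ← EReal.coe_mul, ← EReal.coe_add,
    Real.log_mul (by positivity) (by positivity), Real.log_exp, Real.log_pow,
    Real.log_sqrt (by positivity), Real.log_div (by positivity) (by positivity)]
  congr 1
  push_cast
  field_simp
  ring

lemma mom_eq {ι H : Type} [NormedAddCommGroup H] [InnerProductSpace ℂ H] (Y : ι → H →L[ℂ] H)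
    (Ω : H) (w : List ι) : mom Y Ω w = ⟪Ω, (w.map Y).prod Ω⟫_ℂ := by
  have : act Y w Ω = (w.map Y).prod Ω := by
    induction w with
    | nil => rfl
    | cons i w ih => exact congrArg (Y i) ih
  rw [mom, this]

/-- The vector state. -/
noncomputable def tau {H : Type} [NormedAddCommGroup H] [InnerProductSpace ℂ H] (Ω : H) :
    (H →L[ℂ] H) →+ ℂ := .mk' (fun x => ⟪Ω, x Ω⟫_ℂ) fun _ _ => inner_add_right _ _ _

lemma tau_apply {H : Type} [NormedAddCommGroup H] [InnerProductSpace ℂ H] (Ω : H)
    (x : H →L[ℂ] H) : tau Ω x = ⟪Ω, x Ω⟫_ℂ := rfl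

end Vl

open Vl

variable {F : Type} [Fintype F] [DecidableEq F] {H : Type} [NormedAddCommGroup H]
  [InnerProductSpace ℂ H] {s : NN F → H →L[ℂ] H} {Ω : H}

theorem chi_gt (h : SD (mom s Ω)) : ⊥ < chi (mom (XX s) Ω) := by
  obtain ⟨R, hR, hn⟩ := normb
  refine lt_of_lt_of_le (EReal.bot_lt_coe (-1)) (le_iSup₂_of_le (R + 2 * R ^ 3) (by positivity)
    (le_iInf fun m => le_iInf₂ fun ε hε => le_limsup_of_frequently_le (Eventually.frequently ?_)))
  choose T hT hv using shear (F := F)
  have h1 : ∀ w : List (NN F), Tendsto (fun z => (z.1 : ℂ)⁻¹ * (w.map (XX (mat z.2))).prod.trace)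
      (FF (NN F)) (𝓝 (mom (XX s) Ω w)) := fun w => by
    obtain ⟨L, hL⟩ := expand w
    have := tendsto_list_sum L (f := fun u (z : Σ k : ℕ, NN F × Fin k × Fin k → ℝ) =>
      (z.1 : ℂ)⁻¹ * (u.map (mat z.2)).prod.trace) (x := FF (NN F)) (a := mom s Ω) fun u _ =>
        Metric.tendsto_nhds.2 fun ε hε => by
          simpa only [ev_FF, dist_eq_norm, not_lt] using gue h u hε
    convert this using 2
    · rw [hL, List.sum_map_mul_left, Matrix.trace_list_sum, List.map_map]; rfl
    · rw [mom_eq, hL, ← tau_apply, map_list_sum, List.map_map, funext (mom_eq s Ω)]; rfl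
  have h2 : ∀ᶠ z in FF (NN F), T z.1 z.2 ∈ Gam (mom (XX s) Ω) (R + 2 * R ^ 3) m z.1 ε := by
    filter_upwards [eventually_all.2 fun i => (ev_FF (p := fun z => OpLe (mat z.2 i) R)).2 (hn i),
      (eventually_all_finite (List.finite_length_le (NN F) m)).2 fun w _ =>
        Metric.tendsto_nhds.1 (h1 w) ε hε] with z a b
    simp only [← hT, dist_eq_norm] at b
    exact ⟨fun i => show OpLe (mat _ i) _ from hT _ _ ▸ opLe_XX hR a i, fun w _ hw => b w hw⟩
  filter_upwards [(ev_FF.1 h2).eventually_le_const (u := ENNReal.ofReal (1 - Real.exp (-1)))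
    (by simp), eventually_gt_atTop 0] with k a hk
  have := Real.two_le_pi
  have b : ENNReal.ofReal (√(2 * Real.pi / k) ^ (Fintype.card (NN F) * (k * k)) * Real.exp (-1)) ≤
      volume (Gam (mom (XX s) Ω) (R + 2 * R ^ 3) m k ε) := by
    have c := (measure_univ_le_add_compl (μ := gam _ k) _).trans (add_le_add
      (gam_le hk (T k ⁻¹' Gam (mom (XX s) Ω) (R + 2 * R ^ 3) m k ε)) a)
    rw [measure_univ, hv, ← tsub_le_iff_right, ← ENNReal.ofReal_one,
      ← ENNReal.ofReal_sub _ (by simp), sub_sub_cancel, mul_comm,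
      ← ENNReal.div_le_iff_le_mul (Or.inl (by simp; positivity)) (by simp),
      ← ENNReal.ofReal_div_of_pos (by positivity), div_eq_inv_mul, ← inv_pow, ← Real.sqrt_inv,
      inv_div] at c
    simpa only [Fintype.card_prod, Fintype.card_fin] using c
  refine le_trans ?_ (add_le_add_left (mul_le_mul_of_nonneg_left (ENNReal.log_monotone b)
    (by positivity)) _)
  rw [key _ hk, EReal.coe_le_coe_iff]
  have : 0 ≤ Real.log (2 * Real.pi) := Real.log_nonneg (by linarith)
  have : (1 : ℝ) / k ^ 2 ≤ 1 := div_le_one_of_le₀ (one_le_pow₀ (by exact_mod_cast hk)) (by simp)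
  rw [neg_div]
  exact le_add_of_nonneg_of_le (by positivity) (by linarith)

theorem chi_le (h : SD (mom s Ω)) : chi (mom (XX s) Ω) ≤
    ((Fintype.card (NN F) / 2 * Real.log (2 * Real.pi * Real.exp 1) : ℝ) : EReal) := by
  refine iSup₂_le fun R _ => EReal.le_of_forall_lt_iff_le.1 fun z hz => ?_
  rw [EReal.coe_lt_coe_iff, Real.log_mul (by positivity) (by positivity), Real.log_exp] at hz
  obtain ⟨ε, hε, hz⟩ : ∃ ε, 0 < ε ∧ Fintype.card (NN F) / 2 * Real.log (2 * Real.pi) +
      Fintype.card (NN F) * (1 + 9 * ε) / 2 ≤ z := by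
    have : ContinuousAt (fun ε : ℝ => Fintype.card (NN F) / 2 * Real.log (2 * Real.pi) +
      Fintype.card (NN F) * (1 + 9 * ε) / 2) 0 := by fun_prop
    exact (eventually_mem_nhdsWithin.and ((this.tendsto.eventually_le_const (u := z)
      (by linarith)).filter_mono (nhdsWithin_le_nhds (s := Set.Ioi 0)))).exists
  refine iInf_le_of_le 6 (iInf₂_le_of_le ε hε (limsup_le_of_le ?_ ?_))
  · isBoundedDefault
  filter_upwards [eventually_gt_atTop 0] with k hk
  obtain ⟨T, hT, hv⟩ := shear (F := F) k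
  have b : volume (Gam (mom (XX s) Ω) R 6 k ε) ≤ ENNReal.ofReal (√(2 * Real.pi / k) ^
      (Fintype.card (NN F) * (k * k)) *
        Real.exp (k * (Fintype.card (NN F) * (k * (1 + 9 * ε))) / 2)) := by
    rw [← hv]
    refine (measure_mono fun y hy => ?_).trans ((vol_ball hk _).trans_eq
      (by simp only [Fintype.card_prod, Fintype.card_fin]; rfl))
    rw [Set.mem_ofPred_eq, sum_sq, ← nsmul_eq_mul, ← Finset.card_univ]
    refine Finset.sum_le_card_nsmul _ _ _ fun i _ => ?_
    have := sq_bound (Complex.reAddGroupHom.comp ((AddMonoidHom.mulLeft (k : ℂ)⁻¹).comp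
      (Matrix.traceAddMonoidHom _ ℂ))) (Complex.reAddGroupHom.comp (tau Ω)) (a := mat y) (b := s)
      (ε := ε) (fun w h1 h2 => by
        have := (Complex.abs_re_le_norm _).trans_lt (hy.2 w h1 h2)
        rwa [mom_eq, ← hT] at *) i
    have e := h.cons i [i]
    simp [h.nil] at e
    simp [mom_eq] at e
    simpa [tau_apply, e, ← Complex.ofReal_natCast, ← Complex.ofReal_inv, inv_mul_le_iff₀, hk]
      using this
  refine (add_le_add_left (mul_le_mul_of_nonneg_left (ENNReal.log_monotone b)
    (by positivity)) _).trans ?_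
  rw [key _ hk, EReal.coe_le_coe_iff]
  refine le_of_eq_of_le ?_ hz
  field_simp

end Vale.Agent.P087
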