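import Vale.Agent.P087.Fisher
import Vale.Agent.P087.Free
import Vale.Agent.P087.Vol
import Vale.Agent.P087.Integ

/-! The counterexample. -/

namespace Vale.Agent.P087

open scoped InnerProductSpace ENNReal
open MeasureTheory

variable {F : Type} [Fintype F] [DecidableEq F]

omit [Fintype F] [DecidableEq F] in
lemma XX_mem {A : Type} [Ring A] {S : Type} [SetLike S A] [SubringClass S A] {M : S}
    {s : NN F → A} (h : ∀ i, s i ∈ M) (i : NN F) : XX s i ∈ M := by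
  cases i with
  | inl i => exact h _
  | inr j =>
    exact add_mem (h _) (add_mem (mul_mem (mul_mem (h _) (h _)) (h _))
      (mul_mem (mul_mem (h _) (h _)) (h _)))

omit [Fintype F] in
lemma setup : ∃ M, Setup M (dl []) (XX fun i : NN F => fs (.inl i : II F)) fun i => fs (.inr i) := by
  obtain ⟨M, h1, h2, h3⟩ := exists_M (I := II F)
  refine ⟨M, norm_dl _, h2, h3, fun j => ⟨XX_mem (fun _ => h1 _) j, h1 _⟩,
    fun j => ⟨XX_sa j, fs_sa _⟩, fun j => semicirc _,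
    isFree (Sum.elim (fun _ => none) some) fun o => ?_⟩
  rcases o with _ | j
  · rintro _ ⟨i, rfl⟩
    refine XX_mem (fun i => Algebra.subset_adjoin ?_) i
    exact ⟨.inl i, rfl, rfl⟩
  · rintro _ rfl
    exact Algebra.subset_adjoin ⟨.inr j, rfl, rfl⟩

theorem counter {ρ : ℕ} (hρ : Fintype.card F = ρ ^ 2) (h2 : 2 ≤ ρ)
    (h : 3 * (ρ : ℝ) ^ 2 * (1 + Real.log ((1 + 10 * (ρ : ℝ) ^ 6) ^ 2)) <
      (ρ : ℝ) ^ 6 / (1 + 10528 * (ρ : ℝ) ^ 3)) : Counter (Fintype.card (NN F)) (FH (II F)) := by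
  obtain ⟨M, hM⟩ := setup (F := F)
  have hs := sd_fs (I := II F) Sum.inl_injective
  have hn : (Fintype.card (NN F) : ℝ) = 3 * (ρ : ℝ) ^ 2 + (ρ : ℝ) ^ 6 := by
    simp [hρ]; ring
  obtain ⟨h3, h4⟩ := integ (Φ := fun t => fisher (YY (F := F) √t) (dl [])) (by positivity)
    (by positivity) (one_le_pow₀ (le_add_of_nonneg_right (by positivity))) (by positivity)
    (fun t ht => fisher_le hρ h2 ht) (fun t ht => hn ▸ le_fisher' ht) h
  rw [← hn] at h3 h4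
  have h5 : ∀ a b : ℝ≥0∞, ∀ x : ℝ, a < b → b < ⊤ → (x : EReal) < ((1 / 2 : ℝ) : EReal) *
      ((b : EReal) - a) + x ∧ ((1 / 2 : ℝ) : EReal) * ((b : EReal) - a) + x < ⊤ := by
    intro a b x hab hb
    have := ENNReal.toReal_strict_mono hb.ne hab
    rw [← EReal.coe_ennreal_toReal hb.ne, ← EReal.coe_ennreal_toReal (hab.trans hb).ne]
    norm_cast
    exact ⟨by linarith, EReal.coe_lt_top _⟩
  exact counter_of hM (chi_gt hs) ((chi_le hs).trans_lt (h5 _ _ _ h3 h4).1) (h5 _ _ _ h3 h4).2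

lemma exists_rho : ∃ ρ : ℕ, 2 ≤ ρ ∧ 3 * (ρ : ℝ) ^ 2 * (1 + Real.log ((1 + 10 * (ρ : ℝ) ^ 6) ^ 2)) <
    (ρ : ℝ) ^ 6 / (1 + 10528 * (ρ : ℝ) ^ 3) := by
  refine ⟨2 ^ 25, by norm_num, ?_⟩
  have h : Real.log ((1 + 10 * ((2 ^ 25 : ℕ) : ℝ) ^ 6) ^ 2) ≤ 308 := by
    refine (Real.log_le_log (y := (2 ^ 154) ^ 2) (by positivity) (by norm_num)).trans ?_
    rw [Real.log_pow, Real.log_pow]
    have := Real.log_le_sub_one_of_pos (x := 2) two_pos
    push_cast
    linarith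
  refine (mul_le_mul_of_nonneg_left (add_le_add_right h 1) (by positivity)).trans_lt ?_
  norm_num

theorem main : ∃ n, 1 ≤ n ∧ ∃ (H : Type) (_ : NormedAddCommGroup H) (_ : InnerProductSpace ℂ H)
    (_ : CompleteSpace H), Counter n H := by
  obtain ⟨ρ, h2, h⟩ := exists_rho
  refine ⟨_, ?_, _, _, _, _, counter (F := Fin (ρ ^ 2)) (Fintype.card_fin _) h2 h⟩
  have : Nonempty (NN (Fin (ρ ^ 2))) := ⟨.inl (0, ⟨0, by positivity⟩)⟩
  exact Fintype.card_pos

end Vale.Agent.P087
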