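import Vale.Agent.P087.Rel
import Mathlib.Algebra.Order.Chebyshev

/-! Weighted norms of functions of words. -/

namespace Vale.Agent.P087

open Finset
open scoped ENNReal NNReal

variable {I : Type} (wt : I → ℝ≥0∞)

/-- The weighted norm. -/
noncomputable def nrm (G : List I → ℂ) : ℝ≥0∞ := ∑' v, (v.map wt).prod * ‖G v‖ₑ ^ 2

lemma nrm_zero : nrm wt 0 = 0 := by simp [nrm]

lemma le_nrm (G : List I → ℂ) (v : List I) : (v.map wt).prod * ‖G v‖ₑ ^ 2 ≤ nrm wt G :=
  ENNReal.le_tsum (f := fun v => (v.map wt).prod * ‖G v‖ₑ ^ 2) v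

lemma nrm_head [Fintype I] (G : List I → ℂ) :
    nrm wt G = ‖G []‖ₑ ^ 2 + ∑ e, wt e * nrm wt fun v => G (e :: v) := by
  classical
  have h := Function.Injective.tsum_eq (g := fun p : I × List I => p.1 :: p.2)
    (f := fun v => if v = [] then 0 else (v.map wt).prod * ‖G v‖ₑ ^ 2)
    (fun p q h => Prod.ext (List.cons.inj h).1 (List.cons.inj h).2) (by
      rintro (_ | ⟨a, v⟩) hv
      · simp at hv
      · exact ⟨(a, v), rfl⟩)
  rw [ENNReal.tsum_prod', tsum_fintype] at h
  rw [nrm, ENNReal.tsum_eq_add_tsum_ite []]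
  convert congrArg (‖G []‖ₑ ^ 2 + ·) h.symm
  · simp
  · simp [nrm, ENNReal.tsum_mul_left, mul_assoc]

lemma nrm_pre {J : Type} [Fintype J] {p : J → List I} (hp : Function.Injective p) {n : ℕ}
    (hn : ∀ j, (p j).length = n) {c : ℝ≥0∞} (hc : ∀ j, ((p j).map wt).prod = c)
    (G : List I → ℂ) : c * ∑ j, nrm wt (fun v => G (p j ++ v)) ≤ nrm wt G := by
  have h := ENNReal.tsum_comp_le_tsum_of_injective (f := fun q : J × List I => p q.1 ++ q.2)
    (fun q q' h => by
      have := List.append_inj h ((hn _).trans (hn _).symm)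
      exact Prod.ext (hp this.1) this.2) (fun v => (v.map wt).prod * ‖G v‖ₑ ^ 2)
  refine le_of_eq_of_le ?_ h
  rw [ENNReal.tsum_prod', tsum_fintype, mul_sum]
  simp [nrm, ← ENNReal.tsum_mul_left, mul_assoc, hc]

lemma nrm_sum {J : Type} [Fintype J] (G : J → List I → ℂ) :
    nrm wt (∑ j, G j) ≤ Fintype.card J * ∑ j, nrm wt (G j) := by
  simp only [nrm]
  rw [← Summable.tsum_finsetSum fun _ _ => ENNReal.summable, ← ENNReal.tsum_mul_left]
  refine ENNReal.tsum_le_tsum fun v => ?_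
  rw [← mul_sum, mul_left_comm, Finset.sum_apply]
  gcongr
  have h : ‖∑ j, G j v‖₊ ^ 2 ≤ Fintype.card J * ∑ j, ‖G j v‖₊ ^ 2 :=
    (pow_le_pow_left₀ (by positivity) (nnnorm_sum_le _ _) 2).trans sq_sum_le_card_mul_sum_sq
  simp only [enorm_eq_nnnorm]
  exact_mod_cast h

lemma nrm_add (G G' : List I → ℂ) : nrm wt (G + G') ≤ 2 * (nrm wt G + nrm wt G') := by
  simpa using nrm_sum wt ![G, G']

lemma nrm_smul (θ : ℂ) (G : List I → ℂ) : nrm wt (θ • G) = ‖θ‖ₑ ^ 2 * nrm wt G := by
  simp only [nrm, ← ENNReal.tsum_mul_left, Pi.smul_apply, smul_eq_mul, enorm_mul]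
  exact tsum_congr fun v => by ring

lemma nrm_fib {J E : Type} [Fintype J] [Fintype E] [DecidableEq E] {α : J → E}
    (hα : Function.Injective α) (c : E → ℝ≥0∞) (G : J → List I → ℂ) :
    ∑ e, c e * nrm wt (∑ a, if α a = e then G a else 0) = ∑ a, c (α a) * nrm wt (G a) := by
  classical
  have : ∀ e, nrm wt (∑ a, if α a = e then G a else 0) =
      ∑ a, if α a = e then nrm wt (G a) else 0 := fun e => by
    by_cases h : ∃ a, α a = e
    · obtain ⟨a, rfl⟩ := h
      simp [hα.eq_iff]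
    · simp [not_exists.1 h, nrm_zero]
  simp only [this, mul_sum, mul_ite, mul_zero]
  rw [sum_comm]
  simp

lemma nrm_fin [Fintype I] (hw : ∀ e, wt e ≠ ⊤) {n : ℕ} {G : List I → ℂ}
    (h : ∀ u, n ≤ u.length → G u = 0) : nrm wt G ≠ ⊤ := by
  induction n generalizing G with
  | zero => rw [show G = 0 from funext fun u => h u (Nat.zero_le _), nrm_zero]; simp
  | succ n ih =>
    rw [nrm_head]
    exact ENNReal.add_ne_top.2 ⟨by simp, ENNReal.sum_ne_top.2 fun e _ =>
      ENNReal.mul_ne_top (hw e) (ih fun u hu => h _ (by simpa using hu))⟩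

variable [Fintype I] [DecidableEq I] {F : Type} [Fintype F] {r : ℝ≥0∞} {wt}

lemma nrm_sL (hr : (Fintype.card F : ℝ≥0∞) = r ^ 2) {β : F → I} (hβ : Function.Injective β)
    (hw : ∀ a, wt (β a) = r) (G : F → List I → ℂ) :
    nrm wt (∑ a, sL (β a) (G a)) ≤ 4 * r * ∑ a, nrm wt (G a) := by
  have e : ∑ a, sL (β a) (G a) = (fun v => ∑ a, if v.head? = some (β a) then G a v.tail else 0) +
      ∑ a, fun v => G a (β a :: v) := by
    funext v
    simp [sL_apply, sum_add_distrib]
  have h1 : nrm wt (fun v => ∑ a, if v.head? = some (β a) then G a v.tail else 0) =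
      r * ∑ a, nrm wt (G a) := by
    have := nrm_fib wt hβ wt G
    simp only [hw, ← mul_sum] at this
    rw [nrm_head, ← this]
    simp only [List.head?_nil, reduceCtorEq, if_false, sum_const_zero, enorm_zero, ne_eq,
      OfNat.ofNat_ne_zero, not_false_eq_true, zero_pow, zero_add]
    refine sum_congr rfl fun e _ => congrArg (fun x => wt e * nrm wt x) (funext fun v => ?_)
    simp [ite_apply, eq_comm]
  have h2 : nrm wt (∑ a, fun v => G a (β a :: v)) ≤ r * ∑ a, nrm wt (G a) := by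
    refine (nrm_sum wt _).trans ?_
    rw [hr, sq, mul_assoc, mul_sum]
    gcongr with a
    rw [nrm_head wt (G a), ← hw a]
    exact le_add_left (single_le_sum (f := fun e => wt e * nrm wt fun v => G a (e :: v))
      (fun _ _ => zero_le) (mem_univ _))
  rw [e]
  refine (nrm_add wt _ _).trans ?_
  rw [h1]
  calc _ ≤ 2 * (r * ∑ a, nrm wt (G a) + r * ∑ a, nrm wt (G a)) := by gcongr
    _ = _ := by ring

lemma nrm_c3 (hr : (Fintype.card F : ℝ≥0∞) = r ^ 2) {α β γ : F → I} (hα : Function.Injective α)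
    (hβ : Function.Injective β) (hγ : Function.Injective γ) (ha : ∀ a, wt (α a) = r)
    (hb : ∀ a, wt (β a) = r) (hc : ∀ a, wt (γ a) = r) (hab : ∀ a b, β b ≠ α a)
    {g : F × F × F → I} (hg : Function.Injective g) {q : ℝ≥0∞} (h4 : 4 * q = 1)
    (hq : ∀ j, wt (g j) = q) {u : List I}
    (hu : ∀ a, u.getLast? ≠ some (α a)) (hu' : ∀ a, u.getLast? ≠ some (β a)) (η : List I → ℂ) :
    ∑ e, nrm wt (∑ j : F × F × F, c3 e (α j.1) (β j.2.1) (γ j.2.2) (DD (g j) η) u) ≤
      328 * r ^ 2 * nrm wt fun v => η (u ++ v) := by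
  set N := nrm wt fun v => η (u ++ v)
  have h5 : ∀ x, x = x * (4 * q) := fun x => by rw [h4, mul_one]
  have e : ∀ e, ∑ j : F × F × F, c3 e (α j.1) (β j.2.1) (γ j.2.2) (DD (g j) η) u =
      (∑ a, if α a = e then ∑ b, sL (β b) (∑ c, sL (γ c) (DD (g (a, b, c)) η u)) else 0) +
      (∑ b, if β b = e then ∑ c, sL (γ c) (∑ a, DD (g (a, b, c)) η (u ++ [α a])) else 0) +
      ∑ c, if γ c = e then ∑ p : F × F, DD (g (p.1, p.2, c)) η (u ++ [β p.2] ++ [α p.1]) else 0 := by
    intro e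
    simp only [c3_apply, Pi.add_apply, ite_apply, sum_add_distrib, Fintype.sum_prod_type, map_sum,
      Pi.zero_apply, P2_apply, sR_apply, hu, hu', if_false, zero_add, List.getLast?_concat,
      Option.some.injEq, hab, Module.End.mul_apply, sum_ite_irrel, sum_const_zero]
    congr 1
    · congr 1
      rw [sum_comm]
      refine sum_congr rfl fun b _ => ?_
      rw [sum_ite_irrel, sum_comm, sum_const_zero]
    · rw [sum_congr rfl fun _ _ => sum_comm, sum_comm]
      simp only [sum_ite_irrel, sum_const_zero]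
  have p1 := nrm_pre wt (p := fun j => [g j]) (fun j j' h => hg (by simpa using h)) (n := 1)
    (fun _ => rfl) (c := q) (by simp [hq]) fun v => η (u ++ v)
  have p2 := nrm_pre wt (p := fun j : F × F × F => [α j.1, g j])
    (fun j j' h => hg (by simp at h; exact h.2)) (n := 2) (fun _ => rfl) (c := r * q)
    (by simp [hq, ha]) fun v => η (u ++ v)
  have p3 := nrm_pre wt (p := fun j : F × F × F => [β j.2.1, α j.1, g j])
    (fun j j' h => hg (by simp at h; exact h.2.2)) (n := 3) (fun _ => rfl) (c := r * (r * q))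
    (by simp [hq, ha, hb]) fun v => η (u ++ v)
  have f := fun {α : F → I} (hα : Function.Injective α) G => nrm_fib wt hα (fun _ => 1) G
  simp only [one_mul] at f
  have q1 : ∑ a, nrm wt (∑ b, sL (β b) (∑ c, sL (γ c) (DD (g (a, b, c)) η u))) ≤
      64 * r ^ 2 * N := by
    calc _ ≤ ∑ a, 4 * r * ∑ b, 4 * r * ∑ c, nrm wt (DD (g (a, b, c)) η u) :=
          sum_le_sum fun a _ => (nrm_sL hr hβ hb _).trans (by gcongr; exact nrm_sL hr hγ hc _)
      _ = 64 * r ^ 2 * (q * ∑ j, nrm wt fun v => η (u ++ ([g j] ++ v))) := by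
          simp only [← mul_sum, Fintype.sum_prod_type]
          exact (h5 _).trans (by simp only [DD, LinearMap.coe_mk, AddHom.coe_mk]; simp; ring)
      _ ≤ _ := by gcongr
  have q2 : ∑ b, nrm wt (∑ c, sL (γ c) (∑ a, DD (g (a, b, c)) η (u ++ [α a]))) ≤
      16 * r ^ 2 * N := by
    calc _ ≤ ∑ b, 4 * r * ∑ c, r ^ 2 * ∑ a, nrm wt (DD (g (a, b, c)) η (u ++ [α a])) :=
          sum_le_sum fun a _ => (nrm_sL hr hγ hc _).trans (by
            gcongr; exact (nrm_sum wt _).trans_eq (by rw [hr]))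
      _ = 16 * r ^ 2 * (r * q * ∑ j : F × F × F, nrm wt fun v => η (u ++ ([α j.1, g j] ++ v))) := by
          simp only [← mul_sum, Fintype.sum_prod_type]
          rw [sum_congr rfl fun _ _ => sum_comm, sum_comm]
          exact (h5 _).trans (by simp only [DD, LinearMap.coe_mk, AddHom.coe_mk]; simp; ring)
      _ ≤ _ := by gcongr
  have q3 : ∑ c, nrm wt (∑ p : F × F, DD (g (p.1, p.2, c)) η (u ++ [β p.2] ++ [α p.1])) ≤
      4 * r ^ 2 * N := by
    calc _ ≤ ∑ c, r ^ 2 * r ^ 2 * ∑ p : F × F,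
            nrm wt (DD (g (p.1, p.2, c)) η (u ++ [β p.2] ++ [α p.1])) :=
          sum_le_sum fun a _ => (nrm_sum wt _).trans_eq (by
            rw [Fintype.card_prod, Nat.cast_mul, hr])
      _ = 4 * r ^ 2 * (r * (r * q) *
            ∑ j : F × F × F, nrm wt fun v => η (u ++ ([β j.2.1, α j.1, g j] ++ v))) := by
          simp only [← mul_sum, Fintype.sum_prod_type]
          rw [sum_comm, sum_congr rfl fun _ _ => sum_comm]
          exact (h5 _).trans (by simp only [DD, LinearMap.coe_mk, AddHom.coe_mk]; simp; ring)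
      _ ≤ _ := by gcongr
  rw [← f hα] at q1
  rw [← f hβ] at q2
  rw [← f hγ] at q3
  simp only [e]
  refine (sum_le_sum fun e _ => (nrm_add wt _ _).trans
    (mul_le_mul_right (add_le_add_left (nrm_add wt _ _) _) _)).trans ?_
  simp only [← mul_sum, sum_add_distrib]
  calc _ ≤ 2 * (2 * (64 * r ^ 2 * N + 16 * r ^ 2 * N) + 4 * r ^ 2 * N) := by gcongr
    _ = _ := by ring

end Vale.Agent.P087
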