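import Vale.Agent.P087.Nrm

/-! A weighted norm estimate: polynomials in the noisy observations do not see the planted
polynomials. -/

namespace Vale.Agent.P087

open Finset
open scoped ENNReal NNReal

variable {F : Type} [Fintype F] [DecidableEq F] {r q : ℝ≥0∞} {θ : ℂ} {η : List (II F) → ℂ}

/-- The weights. -/
def wq (r q : ℝ≥0∞) : II F → ℝ≥0∞
  | .inl (.inl _) => r
  | _ => q

omit [DecidableEq F] in
lemma swap3 {M : Type} [AddCommMonoid M] (f : F × F × F → M) :
    ∑ j : F × F × F, f (j.2.2, j.2.1, j.1) = ∑ j, f j :=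
  Equiv.sum_comp ⟨fun j : F × F × F => (j.2.2, j.2.1, j.1), fun j => (j.2.2, j.2.1, j.1),
    fun _ => rfl, fun _ => rfl⟩ f

lemma hid_le (hr : (Fintype.card F : ℝ≥0∞) = r ^ 2) (h1 : 1 ≤ r) (h4 : 4 * q = 1)
    (hη : η ∈ Good θ) {u : List (II F)} (hu : ∀ h, u.getLast? ≠ some (.inl (.inl h))) :
    ∑ h, nrm (wq r q) (DD (.inl (.inl h)) η u) ≤
      ‖θ‖ₑ ^ 2 * (2632 * r ^ 2) * nrm (wq r q) fun v => η (u ++ v) := by
  set N := nrm (wq r q) fun v => η (u ++ v)
  have hi : ∀ i, Function.Injective (hid (F := F) i) := fun i a b h => by simpa using h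
  have p1 := nrm_pre (wq r q) (p := fun h => [(.inr (.inl h) : II F)])
    (fun j j' h => by simpa using h) (n := 1) (fun _ => rfl) (c := q) (by simp [wq])
    fun v => η (u ++ v)
  have q1 : ∑ h, nrm (wq r q) (DD (.inr (.inl h)) η u) ≤ 4 * r ^ 2 * N := by
    calc _ = 4 * 1 ^ 2 * (q * ∑ h, nrm (wq r q) (DD (.inr (.inl h)) η u)) := by
          rw [one_pow, mul_one, ← mul_assoc, h4, one_mul]
      _ ≤ _ := by gcongr; exact p1
  have q2 := nrm_c3 (wt := wq r q) hr (hi 0) (hi 1) (hi 2) (fun _ => rfl) (fun _ => rfl)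
    (fun _ => rfl) (by simp) (g := fun j => .inr (.inr j)) (fun _ _ h => by simpa using h) h4
    (fun _ => rfl) (fun _ => hu _) (fun _ => hu _) η
  have q3 := nrm_c3 (wt := wq r q) hr (hi 2) (hi 1) (hi 0) (fun _ => rfl) (fun _ => rfl)
    (fun _ => rfl) (by simp) (g := fun j => .inr (.inr (j.2.2, j.2.1, j.1)))
    (fun _ _ h => by simp at h; exact Prod.ext h.2.2 (Prod.ext h.2.1 h.1)) h4
    (fun _ => rfl) (fun _ => hu _) (fun _ => hu _) η
  rw [Fintype.sum_sum_type, Fintype.sum_sum_type, add_assoc] at q2 q3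
  replace q2 := le_self_add.trans q2
  replace q3 := le_self_add.trans q3
  have e := fun e => swap3 fun j : F × F × F =>
    c3 e (hid 2 j.2.2) (hid 1 j.2.1) (hid 0 j.1) (DD (.inr (.inr j)) η) u
  simp only [e] at q3
  simp only [hη.2.1, Pi.smul_apply, nrm_smul, ← mul_sum, cz, LinearMap.add_apply, Pi.add_apply,
    Finset.sum_apply, sum_add_distrib, mul_assoc]
  gcongr
  refine (sum_le_sum fun e _ => (nrm_add _ _ _).trans
    (mul_le_mul_right (add_le_add_right (nrm_add _ _ _) _) _)).trans ?_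
  simp only [← mul_sum, sum_add_distrib]
  calc _ ≤ 2 * (4 * r ^ 2 * N + 2 * (328 * r ^ 2 * N + 328 * r ^ 2 * N)) := by gcongr
    _ = _ := by ring

lemma pot (hr : (Fintype.card F : ℝ≥0∞) = r ^ 2) (h1 : 1 ≤ r) (hr' : r ≠ ⊤) (h4 : 4 * q = 1)
    (hη : η ∈ Good θ) (hθ : ‖θ‖ₑ ^ 2 * (2632 * r ^ 3) ≤ q) :
    nrm (wq r q) η ≤ 2 * ∑' v, ‖η v‖ₑ ^ 2 := by
  obtain ⟨L, hL⟩ := hη.2.2
  have hq : q ≠ ⊤ := fun h => by simp [h] at h4
  have key : ∀ n (u : List (II F)), L < u.length + n → (∀ h, u.getLast? ≠ some (.inl (.inl h))) →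
      nrm (wq r q) (fun v => η (u ++ v)) ≤ 2 * nrm (fun _ => 1) (fun v => η (u ++ v)) := by
    intro n
    induction n with
    | zero =>
      intro u hu _
      rw [show (fun v => η (u ++ v)) = 0 from funext fun v => hL _ (by simp; omega), nrm_zero]
      exact zero_le
    | succ n ih =>
      intro u hu hu'
      have hf : nrm (wq r q) (fun v => η (u ++ v)) ≠ ⊤ := nrm_fin _
        (by rintro ((_ | _) | _) <;> assumption) (n := L + 1) fun v hv => hL _ (by simp; omega)
      have a1 := hid_le hr h1 h4 hη hu'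
      have a2 := nrm_head (wq r q) fun v => η (u ++ v)
      have a3 := nrm_head (fun _ => 1) fun v => η (u ++ v)
      have a4 := fun (e : II F) (he : ∀ h, e ≠ .inl (.inl h)) =>
        ih (u ++ [e]) (by simp; omega) (by simpa using he)
      simp only [List.append_assoc, List.singleton_append] at a4
      set N := nrm (wq r q) fun v => η (u ++ v)
      set M := nrm (fun _ => 1) fun v => η (u ++ v)
      simp only [Fintype.sum_sum_type, wq, ← mul_sum, one_mul] at a2 a3
      have a5 : r * ∑ h, nrm (wq r q) (fun v => η (u ++ .inl (.inl h) :: v)) ≤ q * N :=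
        calc _ ≤ r * (‖θ‖ₑ ^ 2 * (2632 * r ^ 2) * N) := by gcongr; exact a1
          _ = ‖θ‖ₑ ^ 2 * (2632 * r ^ 3) * N := by ring
          _ ≤ _ := by gcongr
      have b1 := sum_le_sum fun j (_ : j ∈ univ) => a4 (.inl (.inr j)) (by simp)
      have b2 := sum_le_sum fun j (_ : j ∈ univ) => a4 (.inr (.inl j)) (by simp)
      have b3 := sum_le_sum fun j (_ : j ∈ univ) => a4 (.inr (.inr j)) (by simp)
      rw [← mul_sum] at b1 b2 b3
      have a6 := a2.trans_le (add_le_add_right (add_le_add (add_le_add a5 (mul_le_mul_right b1 q))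
        (mul_le_mul_right (add_le_add b2 b3) q)) _)
      rw [a3]
      generalize ‖η (u ++ [])‖ₑ ^ 2 = T, (∑ a, nrm (fun _ => 1) fun v => η (u ++ .inl (.inl a) :: v)) = A,
        (∑ a, nrm (fun _ => 1) fun v => η (u ++ .inl (.inr a) :: v)) = B,
        (∑ a, nrm (fun _ => 1) fun v => η (u ++ .inr (.inl a) :: v)) = C,
        (∑ a, nrm (fun _ => 1) fun v => η (u ++ .inr (.inr a) :: v)) = D at a6 ⊢
      rw [← ENNReal.mul_le_mul_iff_right (a := 3) (by simp) (by simp),
        ← ENNReal.add_le_add_iff_right hf]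
      calc _ = 4 * N := by ring
        _ ≤ 4 * (T + (q * N + q * (2 * B) + q * (2 * C + 2 * D))) := by gcongr
        _ = 4 * T + 4 * q * (N + 2 * (B + C + D)) := by ring
        _ ≤ 4 * T + 1 * (N + 2 * (B + C + D)) + (2 * T + 6 * A + 4 * (B + C + D)) := by
          rw [h4]; exact le_self_add
        _ = _ := by ring
  have := key (L + 1) [] (by simp) (by simp)
  simpa [nrm] using this

end Vale.Agent.P087
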