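import Vale.Agent.P087.Alg
import Vale.Agent.P087.Base

/-! The linear relations satisfied by polynomials in the noisy observations. -/

namespace Vale.Agent.P087

open Finset

section gen

variable {I : Type} [DecidableEq I]

/-- The correction attached to the monomial `x y z`. -/
noncomputable def c3 (e x y z : I) : Module.End ℂ (List I → List I → ℂ) :=
  (if x = e then P2 (sL y * sL z) else 0) + (if y = e then sR x * P2 (sL z) else 0) +
    if z = e then sR y * sR x else 0

lemma c3_apply (e x y z : I) (K : List I → List I → ℂ) : c3 e x y z K =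
    (if x = e then P2 (sL y * sL z) K else 0) + (if y = e then sR x (P2 (sL z) K) else 0) +
      if z = e then sR y (sR x K) else 0 := by
  simp only [c3, LinearMap.add_apply, DFunLike.ite_apply, LinearMap.zero_apply,
    Module.End.mul_apply]

lemma sL_c3 (f e x y z : I) (K : List I → List I → ℂ) :
    sL f (c3 e x y z K) = c3 e x y z (sL f K) := by
  simp only [c3_apply, map_add, apply_ite (sL f), map_zero, sL_sR, sL_P2]

lemma DD_3 (e x y z : I) (η : List I → ℂ) : DD e (sL x (sL y (sL z η))) =
    sL x (sL y (sL z (DD e η))) + c3 e x y z (ten dz η) := by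
  simp only [DD_sL, c3_apply, map_add, apply_ite (sL _), map_zero, sL_ten, P2_ten, sR_ten, sR_dz,
    Module.End.mul_apply, ← sL_sR]
  abel

/-- Functions supported on words of bounded length. -/
def Bd (L : ℕ) : Submodule ℂ (List I → ℂ) where
  carrier := {η | ∀ u, L < u.length → η u = 0}
  add_mem' h h' u hu := by rw [Pi.add_apply, h u hu, h' u hu, add_zero]
  zero_mem' _ _ := rfl
  smul_mem' c η h u hu := by rw [Pi.smul_apply, h u hu, smul_zero]

omit [DecidableEq I] in
lemma Bd.mono {L L' : ℕ} {η : List I → ℂ} (h : η ∈ Bd L) (h' : L ≤ L') : η ∈ Bd L' :=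
  fun u hu => h u (h'.trans_lt hu)

lemma Bd.sL {L : ℕ} {η : List I → ℂ} (h : η ∈ Bd L) (e : I) : sL e η ∈ Bd (L + 1) := fun u hu => by
  rw [sL_apply, h _ (by rw [List.length_tail]; omega), h _ (by rw [List.length_cons]; omega)]
  simp

end gen

variable {F : Type} [DecidableEq F] {V W : Type} [AddCommGroup V] [Module ℂ V]

/-- The alphabet: base letters and noise letters. -/
abbrev II (F : Type) := NN F ⊕ NN F

/-- Hidden letters. -/
abbrev hid (i : Fin 3) (a : F) : II F := .inl (.inl (i, a))

/-- The noisy observations. -/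
noncomputable def YL (c : ℂ) (i : NN F) : Module.End ℂ (List (II F) → V) :=
  XX (fun i => sL (.inl i)) i + c • sL (.inr i)

lemma YL_inl (c : ℂ) (h : Fin 3 × F) (η : List (II F) → V) :
    YL c (.inl h) η = sL (.inl (.inl h)) η + c • sL (.inr (.inl h)) η := rfl

lemma YL_inr (c : ℂ) (j : F × F × F) (η : List (II F) → V) :
    YL c (.inr j) η = sL (.inl (.inr j)) η +
      (sL (hid 0 j.1) (sL (hid 1 j.2.1) (sL (hid 2 j.2.2) η)) +
        sL (hid 2 j.2.2) (sL (hid 1 j.2.1) (sL (hid 0 j.1) η))) + c • sL (.inr (.inr j)) η := rfl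

/-- The correction attached to the polynomial `ZZ j`. -/
noncomputable def cz (e : II F) (j : F × F × F) : Module.End ℂ (List (II F) → List (II F) → ℂ) :=
  c3 e (hid 0 j.1) (hid 1 j.2.1) (hid 2 j.2.2) + c3 e (hid 2 j.2.2) (hid 1 j.2.1) (hid 0 j.1)

lemma YL_cz (c : ℂ) (i : NN F) (e : II F) (j : F × F × F) (K : List (II F) → List (II F) → ℂ) :
    YL c i (cz e j K) = cz e j (YL c i K) := by
  have : ∀ f K, sL f (cz e j K) = cz e j (sL f K) := fun f K => by
    simp only [cz, LinearMap.add_apply, map_add, sL_c3]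
  cases i <;> simp only [YL_inl, YL_inr, this, map_add, map_smul]

lemma YL_ten (c : ℂ) (i : NN F) (α : List (II F) → ℂ) (β : V) :
    YL c i (ten α β) = ten (YL c i α) β := by
  funext u
  cases i <;> simp only [YL_inl, YL_inr, sL_ten, Pi.add_apply, Pi.smul_apply, ten_apply, add_smul,
    smul_assoc]

lemma DD_YL_inl (c : ℂ) (e : II F) (h : Fin 3 × F) (η : List (II F) → ℂ) :
    DD e (YL c (.inl h) η) = YL c (.inl h) (DD e η) +
      ((if .inl (.inl h) = e then ten dz η else 0) +
        c • if .inr (.inl h) = e then ten dz η else 0) := by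
  simp only [YL_inl, map_add, map_smul, DD_sL, smul_add]
  abel

lemma DD_YL_inr (c : ℂ) (e : II F) (j : F × F × F) (η : List (II F) → ℂ) :
    DD e (YL c (.inr j) η) = YL c (.inr j) (DD e η) +
      ((if .inl (.inr j) = e then ten dz η else 0) + cz e j (ten dz η) +
        c • if .inr (.inr j) = e then ten dz η else 0) := by
  rw [YL_inr, YL_inr, map_add, map_add, map_add, map_smul, DD_3, DD_3, DD_sL, DD_sL, cz,
    LinearMap.add_apply, smul_add]
  abel

lemma DD_noise (c : ℂ) (i i' : NN F) (η : List (II F) → ℂ) :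
    DD (.inr i) (YL c i' η) = YL c i' (DD (.inr i) η) + c • if i' = i then ten dz η else 0 := by
  cases i' <;> simp [DD_YL_inl, DD_YL_inr, cz, c3]

/-- Words in the observations applied to the vacuum. -/
noncomputable def zw (c : ℂ) (w : List (NN F)) : List (II F) → ℂ :=
  w.foldr (fun i η => YL c i η) dz

lemma DD_zw (c : ℂ) (i : NN F) (w : List (NN F)) :
    DD (.inr i) (zw c w) = c • ∑ l ∈ range w.length,
      if w[l]? = some i then ten (zw c (w.take l)) (zw c (w.drop (l + 1))) else 0 := by
  induction w with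
  | nil => simp [zw, DD_dz]
  | cons i' w ih =>
    rw [show zw c (i' :: w) = YL c i' (zw c w) from rfl, DD_noise, ih, List.length_cons,
      sum_range_succ', map_smul, map_sum, smul_add]
    simp only [apply_ite (YL c i'), map_zero, YL_ten, List.getElem?_cons_succ, List.take_succ_cons,
      List.drop_succ_cons, List.getElem?_cons_zero, Option.some.injEq, List.take_zero,
      List.drop_zero]
    rfl

variable [Fintype F]

/-- The relations. -/
def Good (θ : ℂ) : Submodule ℂ (List (II F) → ℂ) where
  carrier := {η | (∀ j, DD (.inl (.inr j)) η = θ • DD (.inr (.inr j)) η) ∧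
    (∀ h, DD (.inl (.inl h)) η = θ • (DD (.inr (.inl h)) η +
      ∑ j, cz (.inl (.inl h)) j (DD (.inr (.inr j)) η))) ∧ ∃ L, η ∈ Bd L}
  add_mem' := fun ⟨h1, h2, L, h3⟩ ⟨h4, h5, L', h6⟩ =>
    ⟨fun j => by simp only [map_add, h1, h4, smul_add], fun h => by
      simp only [map_add, h2, h5, smul_add, sum_add_distrib]; abel,
      max L L', add_mem (Bd.mono h3 (le_max_left _ _)) (Bd.mono h6 (le_max_right _ _))⟩
  zero_mem' := ⟨by simp, by simp, 0, zero_mem _⟩
  smul_mem' := fun c η ⟨h1, h2, L, h3⟩ => ⟨fun j => by rw [map_smul, map_smul, h1, smul_comm],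
    fun h => by simp only [map_smul, h2, ← smul_sum, ← smul_add, smul_comm c θ],
    L, Submodule.smul_mem _ _ h3⟩

lemma zw_good {c θ : ℂ} (h : θ * c = 1) (w : List (NN F)) : zw c w ∈ Good θ := by
  induction w with
  | nil => exact ⟨by simp [zw, DD_dz], by simp [zw, DD_dz], 0, fun u hu => by
      simp [zw, dz, List.ne_nil_of_length_pos hu]⟩
  | cons i w ih =>
    obtain ⟨h1, h2, L, h3⟩ := ih
    rw [show zw c (i :: w) = YL c i (zw c w) from rfl]
    generalize zw c w = η at *
    refine ⟨fun j => ?_, fun h' => ?_, L + 3, ?_⟩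
    · rw [DD_noise, smul_add, smul_smul, h, one_smul]
      cases i <;> simp [DD_YL_inl, DD_YL_inr, cz, c3, h1]
    · simp only [DD_noise, map_add, map_smul, sum_add_distrib, ← YL_cz, apply_ite (cz _ _),
        map_zero, ← smul_sum, smul_add, smul_smul, h, one_smul]
      cases i <;> simp [DD_YL_inl, DD_YL_inr, h2] <;> abel
    · have b1 := fun e => Bd.mono (Bd.sL h3 e) (show L + 1 ≤ L + 3 by omega)
      have b3 := fun e f g => Bd.sL (Bd.sL (Bd.sL h3 e) f) g
      cases i
      · exact add_mem (b1 _) (Submodule.smul_mem _ _ (b1 _))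
      · exact add_mem (add_mem (b1 _) (add_mem (b3 _ _ _) (b3 _ _ _)))
          (Submodule.smul_mem _ _ (b1 _))

end Vale.Agent.P087
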